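import Mathlib

open MeasureTheory Set

namespace Vale.Agent.P243

/-- The standard triangle in `ℝ × ℝ`. -/
def stdTri : Set (ℝ × ℝ) := {x | 0 ≤ x.1 ∧ 0 ≤ x.2 ∧ x.1 + x.2 ≤ 1}

lemma measurableSet_stdTri : MeasurableSet stdTri := by
  have : IsClosed stdTri := by
    have : stdTri = {x : ℝ × ℝ | 0 ≤ x.1} ∩ ({x | 0 ≤ x.2} ∩ {x | x.1 + x.2 ≤ 1}) := by
      ext x; simp [stdTri]
    rw [this]
    exact (isClosed_le continuous_const continuous_fst).inter
      ((isClosed_le continuous_const continuous_snd).inter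
        (isClosed_le (continuous_fst.add continuous_snd) continuous_const))
  exact this.measurableSet

lemma volume_stdTri : volume stdTri = ENNReal.ofReal (1 / 2) := by
  rw [Measure.volume_eq_prod, Measure.prod_apply measurableSet_stdTri]
  have h : ∀ x : ℝ, volume (Prod.mk x ⁻¹' stdTri) =
      (Icc (0:ℝ) 1).indicator (fun x => ENNReal.ofReal (1 - x)) x := by
    intro x
    by_cases hx : x ∈ Icc (0:ℝ) 1
    · rw [indicator_of_mem hx]
      have : Prod.mk x ⁻¹' stdTri = Icc 0 (1 - x) := by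
        ext y
        simp only [stdTri, mem_preimage, mem_setOf_eq, mem_Icc]
        constructor
        · rintro ⟨_, h2, h3⟩; exact ⟨h2, by linarith⟩
        · rintro ⟨h2, h3⟩; exact ⟨hx.1, h2, by linarith⟩
      rw [this, Real.volume_Icc, sub_zero]
    · rw [indicator_of_notMem hx]
      have : Prod.mk x ⁻¹' stdTri = ∅ := by
        ext y
        simp only [stdTri, mem_preimage, mem_setOf_eq, mem_empty_iff_false, iff_false]
        rintro ⟨h1, h2, h3⟩
        exact hx ⟨h1, by linarith⟩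
      rw [this, measure_empty]
  simp_rw [h]
  rw [lintegral_indicator measurableSet_Icc]
  rw [← ofReal_integral_eq_lintegral_ofReal]
  · congr 1
    rw [integral_Icc_eq_integral_Ioc, ← intervalIntegral.integral_of_le (by norm_num)]
    rw [intervalIntegral.integral_sub (by simp) (by simp)]
    simp
    norm_num
  · exact (continuous_const.sub continuous_id).integrableOn_Icc
  · filter_upwards [ae_restrict_mem measurableSet_Icc] with x hx
    simp only [Pi.zero_apply]
    linarith [hx.2]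

/-- Area of the triangle cut out by two affine functions (two barycentric coordinates). -/
lemma volume_tri (a₁ b₁ c₁ a₂ b₂ c₂ : ℝ) (h : a₁ * b₂ - a₂ * b₁ ≠ 0) :
    volume {x : ℝ × ℝ | 0 ≤ a₁ * x.1 + b₁ * x.2 + c₁ ∧ 0 ≤ a₂ * x.1 + b₂ * x.2 + c₂ ∧
      (a₁ * x.1 + b₁ * x.2 + c₁) + (a₂ * x.1 + b₂ * x.2 + c₂) ≤ 1} =
    ENNReal.ofReal (1 / (2 * |a₁ * b₂ - a₂ * b₁|)) := by
  -- the linear part
  let L : (ℝ × ℝ) →ₗ[ℝ] (ℝ × ℝ) :=
    { toFun := fun x => (a₁ * x.1 + b₁ * x.2, a₂ * x.1 + b₂ * x.2)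
      map_add' := by
        intro x y; ext <;> simp <;> ring
      map_smul' := by
        intro r x; ext <;> simp <;> ring }
  have hdet : LinearMap.det L = a₁ * b₂ - a₂ * b₁ := by
    rw [← LinearMap.det_toMatrix (Module.Basis.finTwoProd ℝ)]
    rw [Matrix.det_fin_two]
    simp [LinearMap.toMatrix_apply, L]
    ring
  have hset : {x : ℝ × ℝ | 0 ≤ a₁ * x.1 + b₁ * x.2 + c₁ ∧ 0 ≤ a₂ * x.1 + b₂ * x.2 + c₂ ∧
      (a₁ * x.1 + b₁ * x.2 + c₁) + (a₂ * x.1 + b₂ * x.2 + c₂) ≤ 1} =
      L ⁻¹' ((fun y => (c₁, c₂) + y) ⁻¹' stdTri) := by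
    ext x
    simp only [stdTri, mem_setOf_eq, mem_preimage, L, LinearMap.coe_mk, AddHom.coe_mk,
      Prod.fst_add, Prod.snd_add]
    constructor
    · rintro ⟨h1, h2, h3⟩; exact ⟨by linarith, by linarith, by linarith⟩
    · rintro ⟨h1, h2, h3⟩; exact ⟨by linarith, by linarith, by linarith⟩
  rw [hset, Measure.addHaar_preimage_linearMap volume (by rw [hdet]; exact h), hdet,
    measure_preimage_add, volume_stdTri, ← ENNReal.ofReal_mul (by positivity)]
  congr 1
  rw [abs_inv]
  field_simp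

end Vale.Agent.P243
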