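import Vale.Agent.P243.Defs

open MeasureTheory Set

namespace Vale.Agent.P243

/-- `A_min(K)`: the smallest area of an orthogonal projection of `K` onto a plane `u^⊥`. -/
noncomputable def Amin (K : Set E3) : ℝ :=
  sInf {a | ∃ u : E3, ‖u‖ = 1 ∧ a = (area u (shadow u K)).toReal}

/-- The total base area `∑ |B i|`. -/
noncomputable def totalArea {m : ℕ} (u : Fin m → E3) (B : Fin m → Set E3) : ℝ :=
  ∑ i, (area (u i) (B i)).toReal

/-- Bang's half-area inequality (Q1): every finite cylinder covering of every convex body in
three-space has total base area at least `A_min(K) / 2`. -/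
def HalfAreaInequality : Prop :=
  ∀ K : Set E3, IsConvexBody K → ∀ (m : ℕ) (u : Fin m → E3) (B : Fin m → Set E3),
    IsCylinderCovering K u B → 1 / 2 * Amin K ≤ totalArea u B

/-- The constant `c₃`: infimum of `∑ |B i| / A_min(K)` over all convex bodies in three-space and
all their finite cylinder coverings. -/
noncomputable def c3 : ℝ :=
  sInf {r | ∃ K : Set E3, IsConvexBody K ∧ ∃ (m : ℕ) (u : Fin m → E3) (B : Fin m → Set E3),
    IsCylinderCovering K u B ∧ r = totalArea u B / Amin K}

end Vale.Agent.P243
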