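import Vale.Agent.P243.Cells
import Vale.Agent.P243.DefsBang

open MeasureTheory Set

namespace Vale.Agent.P243

lemma Amin_nonneg (K : Set E3) : 0 ≤ Amin K := by
  unfold Amin
  apply Real.sInf_nonneg
  rintro a ⟨u, _, rfl⟩
  exact ENNReal.toReal_nonneg

lemma regTet_Amin : Real.sqrt 2 / 2 ≤ Amin regTet := by
  unfold Amin
  refine le_csInf ?_ ?_
  · refine ⟨_, EuclideanSpace.single 0 1, ?_, rfl⟩
    simp
  · rintro a ⟨u, hu, rfl⟩
    exact regTet_shadow_ge hu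

noncomputable section

/-- the directions, indexed by `Fin n ⊕ Fin n` -/
def dirS (n : ℕ) (δ : ℝ) : Fin n ⊕ Fin n → E3
  | Sum.inl k => nrm (dirU δ (zc δ k))
  | Sum.inr k => nrm (dirL δ (zc δ k))

/-- the bases, indexed by `Fin n ⊕ Fin n` -/
def baseS (n : ℕ) (δ : ℝ) : Fin n ⊕ Fin n → Set E3
  | Sum.inl k => baseU δ (zc δ k)
  | Sum.inr k => baseL δ (zc δ k)

/-- the twisted covering of the regular tetrahedron by `2 n` cylinders -/
lemma twisted {n : ℕ} (hn : 100000 ≤ n) :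
    ∃ (u : Fin (n + n) → E3) (B : Fin (n + n) → Set E3),
      IsCylinderCovering regTet u B ∧
        totalArea u B ≤ Real.sqrt 2 * (4999 / 20000) := by
  obtain ⟨δ, hδ⟩ : ∃ δ : ℝ, δ = 1 / (4 * n) := ⟨_, rfl⟩
  have hn' : (0:ℝ) < n := by
    have : 0 < n := by omega
    exact_mod_cast this
  have hδ0 : 0 < δ := by rw [hδ]; positivity
  have hS : ∀ i : Fin n ⊕ Fin n, ‖dirS n δ i‖ = 1 ∧ (∀ b ∈ baseS n δ i, inner ℝ (dirS n δ i) b = 0) ∧
      LebesgueMeasurable (dirS n δ i) (baseS n δ i) ∧ area (dirS n δ i) (baseS n δ i) < ⊤ := by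
    rintro (k | k)
    · have h := pieceU hδ0 (zc δ k)
      exact ⟨norm_nrm h.1, fun b hb => hb.1, h.2.1, h.2.2.1⟩
    · have h := pieceL hδ0 (zc δ k)
      exact ⟨norm_nrm h.1, fun b hb => hb.1, h.2.1, h.2.2.1⟩
  refine ⟨fun i => dirS n δ (finSumFinEquiv.symm i), fun i => baseS n δ (finSumFinEquiv.symm i),
    ⟨fun i => (hS _).1, fun i => (hS _).2.1, fun i => (hS _).2.2.1, fun i => (hS _).2.2.2, ?_⟩, ?_⟩
  · intro x hx
    rw [mem_iUnion]
    rcases covered (by omega) hδ hx with ⟨k, hk, h⟩ | ⟨k, hk, h⟩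
    · refine ⟨finSumFinEquiv (Sum.inl ⟨k, hk⟩), ?_⟩
      simp only [Equiv.symm_apply_apply]
      exact h
    · refine ⟨finSumFinEquiv (Sum.inr ⟨k, hk⟩), ?_⟩
      simp only [Equiv.symm_apply_apply]
      exact h
  · unfold totalArea
    rw [Equiv.sum_comp finSumFinEquiv.symm
      (fun i => (area (dirS n δ i) (baseS n δ i)).toReal), Fintype.sum_sum_type]
    have e1 : ∀ k : Fin n, (area (dirS n δ (Sum.inl k)) (baseS n δ (Sum.inl k))).toReal =
        (fun k : ℕ => 2 * δ * (1 / 2 + gg δ (zc δ k)) ^ 2 /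
          Real.sqrt ((1 + (zc δ k ^ 2 + 1 / 16 - δ ^ 2) ^ 2 + zc δ k ^ 2 / 2) / 2)) k := by
      intro k
      exact (pieceU hδ0 (zc δ k)).2.2.2.1
    have e2 : ∀ k : Fin n, (area (dirS n δ (Sum.inr k)) (baseS n δ (Sum.inr k))).toReal =
        (fun k : ℕ => 2 * δ * (1 / 2 + gg δ (zc δ k)) ^ 2 /
          Real.sqrt ((1 + (zc δ k ^ 2 + 1 / 16 - δ ^ 2) ^ 2 + zc δ k ^ 2 / 2) / 2)) k := by
      intro k
      exact (pieceL hδ0 (zc δ k)).2.2.2.1
    rw [Finset.sum_congr rfl (fun k _ => e1 k), Finset.sum_congr rfl (fun k _ => e2 k),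
      Fin.sum_univ_eq_sum_range (fun k : ℕ => 2 * δ * (1 / 2 + gg δ (zc δ k)) ^ 2 /
          Real.sqrt ((1 + (zc δ k ^ 2 + 1 / 16 - δ ^ 2) ^ 2 + zc δ k ^ 2 / 2) / 2)) n]
    have h := sum_bound hn hδ
    linarith

end

lemma twisted_ratio : ∃ (m : ℕ) (u : Fin m → E3) (B : Fin m → Set E3),
    IsCylinderCovering regTet u B ∧ 0 < Amin regTet ∧
      totalArea u B ≤ 4999 / 10000 * Amin regTet := by
  obtain ⟨u, B, hc, ht⟩ := twisted (n := 100000) le_rfl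
  have h := regTet_Amin
  have hs2 : 0 < Real.sqrt 2 := Real.sqrt_pos.2 (by norm_num)
  refine ⟨_, u, B, hc, by linarith, ?_⟩
  linarith

lemma c3_le {K : Set E3} (hK : IsConvexBody K) {m : ℕ} {u : Fin m → E3} {B : Fin m → Set E3}
    (hc : IsCylinderCovering K u B) : c3 ≤ totalArea u B / Amin K := by
  unfold c3
  refine csInf_le ⟨0, ?_⟩ ⟨K, hK, m, u, B, hc, rfl⟩
  rintro r ⟨K', _, m', u', B', _, rfl⟩
  exact div_nonneg (Finset.sum_nonneg fun _ _ => ENNReal.toReal_nonneg) (Amin_nonneg K')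

end Vale.Agent.P243
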