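import Vale.Agent.P243.Wall

open Finset

namespace Vale.Agent.P243

lemma inv_sqrt_le {X : ℝ} (h0 : 0 ≤ X) (h1 : X ≤ 1) :
    1 / Real.sqrt (1 + X) ≤ 1 - X / 2 + 3 / 8 * X ^ 2 := by
  have hpos : 0 < Real.sqrt (1 + X) := Real.sqrt_pos.2 (by linarith)
  have ha : 0 ≤ 1 - X / 2 + 3 / 8 * X ^ 2 := by nlinarith [sq_nonneg X]
  rw [div_le_iff₀ hpos]
  have h2 : 1 ≤ (1 - X / 2 + 3 / 8 * X ^ 2) ^ 2 * (1 + X) := by
    have e : (1 - X / 2 + 3 / 8 * X ^ 2) ^ 2 * (1 + X) =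
        1 + X ^ 3 * (5 / 8 - 15 / 64 * X) + 9 / 64 * X ^ 5 := by ring
    rw [e]
    have : 0 ≤ X ^ 3 * (5 / 8 - 15 / 64 * X) := mul_nonneg (by positivity) (by linarith)
    have : 0 ≤ 9 / 64 * X ^ 5 := by positivity
    linarith
  have h3 : Real.sqrt 1 ≤ Real.sqrt ((1 - X / 2 + 3 / 8 * X ^ 2) ^ 2 * (1 + X)) :=
    Real.sqrt_le_sqrt h2
  rw [Real.sqrt_one, Real.sqrt_mul (sq_nonneg _), Real.sqrt_sq ha] at h3
  exact h3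

/-- Numerical estimate for one term. -/
lemma term_poly {Z δ : ℝ} (hZ0 : 0 ≤ Z) (hZ1 : Z ≤ 1 / 16) (hδ0 : 0 < δ)
    (hδ1 : δ ≤ 1 / 400000) {g X : ℝ} (hg : g = Z / 16 + 51 / 50 * Z ^ 2 + δ / 3)
    (hX : X = (Z + 1 / 16 - δ ^ 2) ^ 2 + Z / 2) :
    (1 / 2 + g) ^ 2 * (1 - X / 2 + 3 / 8 * X ^ 2) ≤
      249516 / 1000000 - 15167 / 1000000 * Z + 956 / 1000 * Z ^ 2 := by
  have hd0 : 0 ≤ δ ^ 2 := sq_nonneg δ
  have hd1 : δ ^ 2 ≤ δ / 400000 := by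
    have : δ * δ ≤ δ * (1 / 400000) := mul_le_mul_of_nonneg_left hδ1 hδ0.le
    rw [sq]; linarith
  have hZ2 : Z ^ 2 ≤ Z / 16 := by
    have : Z * Z ≤ Z * (1 / 16) := mul_le_mul_of_nonneg_left hZ1 hZ0
    rw [sq]; linarith
  have hZ20 : 0 ≤ Z ^ 2 := sq_nonneg Z
  have hZ3 : Z ^ 3 ≤ Z ^ 2 / 16 := by
    have : Z ^ 2 * Z ≤ Z ^ 2 * (1 / 16) := mul_le_mul_of_nonneg_left hZ1 hZ20
    calc Z ^ 3 = Z ^ 2 * Z := by ring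
      _ ≤ Z ^ 2 * (1 / 16) := this
      _ = _ := by ring
  have hZ4 : Z ^ 4 ≤ Z ^ 2 / 256 := by
    have : Z ^ 2 * Z ^ 2 ≤ Z ^ 2 * (1 / 256) := mul_le_mul_of_nonneg_left (by linarith) hZ20
    calc Z ^ 4 = Z ^ 2 * Z ^ 2 := by ring
      _ ≤ Z ^ 2 * (1 / 256) := this
      _ = _ := by ring
  obtain ⟨g₀, hg0⟩ : ∃ g₀, g₀ = Z / 16 + 51 / 50 * Z ^ 2 := ⟨_, rfl⟩
  obtain ⟨X₀, hX0⟩ : ∃ X₀, X₀ = Z ^ 2 + 5 / 8 * Z + 1 / 256 := ⟨_, rfl⟩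
  have hg0n : 0 ≤ g₀ := by rw [hg0]; positivity
  have hgn : 0 ≤ g := by rw [hg]; positivity
  have hgg0 : g = g₀ + δ / 3 := by rw [hg, hg0]
  have hg01 : g₀ ≤ 1 / 50 := by rw [hg0]; linarith
  -- bounds for X
  have hXX0 : X ≤ X₀ := by
    rw [hX, hX0]
    have : 0 ≤ δ ^ 2 * (2 * (Z + 1 / 16) - δ ^ 2) := mul_nonneg hd0 (by linarith)
    nlinarith
  have hXX1 : X₀ - δ ^ 2 / 4 ≤ X := by
    rw [hX, hX0]
    have h1 : 0 ≤ δ ^ 2 * (1 / 4 - 2 * (Z + 1 / 16)) := mul_nonneg hd0 (by linarith)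
    have h2 : 0 ≤ (δ ^ 2) ^ 2 := sq_nonneg _
    nlinarith
  have hX0n : 0 ≤ X := by
    rw [hX]; positivity
  have hX01 : X₀ ≤ 1 / 16 := by rw [hX0]; linarith
  have hX1 : X ≤ 1 / 16 := le_trans hXX0 hX01
  have hXsq : X ^ 2 ≤ X₀ ^ 2 := pow_le_pow_left₀ hX0n hXX0 2
  -- step 1
  have hS : 0 ≤ X / 2 - 3 / 8 * X ^ 2 := by
    have : X ^ 2 ≤ X * (1 / 16) := by rw [sq]; exact mul_le_mul_of_nonneg_left hX1 hX0n
    linarith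
  have step1 : (1 / 2 + g) ^ 2 * (1 - X / 2 + 3 / 8 * X ^ 2) ≤
      1 / 4 + g + g ^ 2 - X / 8 + 3 / 32 * X ^ 2 := by
    have h1 : 0 ≤ (g + g ^ 2) * (X / 2 - 3 / 8 * X ^ 2) := mul_nonneg (by positivity) hS
    have e : (1 / 2 + g) ^ 2 * (1 - X / 2 + 3 / 8 * X ^ 2) =
        1 / 4 + g + g ^ 2 - X / 8 + 3 / 32 * X ^ 2 - (g + g ^ 2) * (X / 2 - 3 / 8 * X ^ 2) := by
      ring
    rw [e]; linarith
  have step2 : g ^ 2 ≤ g₀ ^ 2 + δ / 3 := by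
    rw [hgg0]
    have h1 : 0 ≤ δ / 3 * (1 - 2 * g₀ - δ / 3) := mul_nonneg (by linarith) (by linarith)
    nlinarith
  have e1 : g₀ ^ 2 = Z ^ 2 / 256 + 51 / 400 * Z ^ 3 + 2601 / 2500 * Z ^ 4 := by rw [hg0]; ring
  have e2 : X₀ ^ 2 = 1 / 65536 + 5 / 1024 * Z + 51 / 128 * Z ^ 2 + 5 / 4 * Z ^ 3 + Z ^ 4 := by
    rw [hX0]; ring
  rw [e1] at step2
  rw [e2] at hXsq
  linarith

lemma term_bound {z δ : ℝ} (hz : |z| ≤ 1 / 4) (hδ0 : 0 < δ) (hδ1 : δ ≤ 1 / 400000) :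
    (1 / 2 + gg δ z) ^ 2 / Real.sqrt ((1 + (z ^ 2 + 1 / 16 - δ ^ 2) ^ 2 + z ^ 2 / 2) / 2) ≤
      Real.sqrt 2 *
        (249516 / 1000000 - 15167 / 1000000 * z ^ 2 + 956 / 1000 * z ^ 4) := by
  have hz2 : z ^ 2 ≤ 1 / 16 := by
    have : |z| ^ 2 ≤ (1 / 4) ^ 2 := pow_le_pow_left₀ (abs_nonneg z) hz 2
    rw [sq_abs] at this; linarith
  have hZ0 := sq_nonneg z
  obtain ⟨X, hX⟩ : ∃ X, X = (z ^ 2 + 1 / 16 - δ ^ 2) ^ 2 + z ^ 2 / 2 := ⟨_, rfl⟩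
  have hd1 : δ ^ 2 ≤ 1 / 16 := by
    have : δ ^ 2 ≤ (1 / 400000) ^ 2 := pow_le_pow_left₀ hδ0.le hδ1 2
    linarith
  have hX0 : 0 ≤ X := by rw [hX]; positivity
  have hX1 : X ≤ 1 := by
    rw [hX]
    have : (z ^ 2 + 1 / 16 - δ ^ 2) ^ 2 ≤ (1 / 8) ^ 2 :=
      pow_le_pow_left₀ (by linarith) (by linarith [sq_nonneg δ]) 2
    linarith
  have e : (1 + (z ^ 2 + 1 / 16 - δ ^ 2) ^ 2 + z ^ 2 / 2) / 2 = (1 + X) / 2 := by rw [hX]; ring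
  rw [e, Real.sqrt_div (by linarith)]
  have hs2 : 0 < Real.sqrt 2 := Real.sqrt_pos.2 (by norm_num)
  have e' : (1 / 2 + gg δ z) ^ 2 / (Real.sqrt (1 + X) / Real.sqrt 2) =
      Real.sqrt 2 * ((1 / 2 + gg δ z) ^ 2 * (1 / Real.sqrt (1 + X))) := by
    field_simp
  rw [e']
  apply mul_le_mul_of_nonneg_left _ hs2.le
  have h1 := inv_sqrt_le hX0 hX1
  have h2 := term_poly hZ0 hz2 hδ0 hδ1 (g := gg δ z) (by unfold gg; ring) hX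
  calc (1 / 2 + gg δ z) ^ 2 * (1 / Real.sqrt (1 + X)) ≤
      (1 / 2 + gg δ z) ^ 2 * (1 - X / 2 + 3 / 8 * X ^ 2) :=
        mul_le_mul_of_nonneg_left h1 (sq_nonneg _)
    _ ≤ _ := h2
    _ = _ := by ring

/-- antiderivative -/
noncomputable def antider (y : ℝ) : ℝ :=
  249516 / 1000000 * y - 15167 / 3000000 * y ^ 3 + 956 / 5000 * y ^ 5

lemma antider_step {z δ : ℝ} (hδ0 : 0 < δ) :
    2 * δ * (249516 / 1000000 - 15167 / 1000000 * z ^ 2 + 956 / 1000 * z ^ 4) ≤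
      antider (z + δ) - antider (z - δ) + δ ^ 3 := by
  unfold antider
  have e : 249516 / 1000000 * (z + δ) - 15167 / 3000000 * (z + δ) ^ 3
        + 956 / 5000 * (z + δ) ^ 5 -
      (249516 / 1000000 * (z - δ) - 15167 / 3000000 * (z - δ) ^ 3 + 956 / 5000 * (z - δ) ^ 5) +
      δ ^ 3 -
      2 * δ * (249516 / 1000000 - 15167 / 1000000 * z ^ 2 + 956 / 1000 * z ^ 4) =
      (1 - 15167 / 1500000) * δ ^ 3 + 956 / 5000 * (20 * δ ^ 3 * z ^ 2 + 2 * δ ^ 5) := by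
    ring
  have h1 : 0 ≤ (1 - 15167 / 1500000) * δ ^ 3 := by
    apply mul_nonneg (by norm_num) (by positivity)
  have h2 : 0 ≤ 956 / 5000 * (20 * δ ^ 3 * z ^ 2 + 2 * δ ^ 5) := by positivity
  linarith

/-- the center of the `k`-th cell -/
noncomputable def zc (δ : ℝ) (k : ℕ) : ℝ := -1 / 4 + (2 * k + 1) * δ

lemma abs_zc {n : ℕ} (hn : 0 < n) {k : ℕ} (hk : k < n) {δ : ℝ} (hδ : δ = 1 / (4 * n)) :
    |zc δ k| ≤ 1 / 4 := by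
  have hn' : (0:ℝ) < n := by exact_mod_cast hn
  have hk' : (k:ℝ) + 1 ≤ n := by exact_mod_cast hk
  have hk0 : (0:ℝ) ≤ k := by positivity
  have hδ0 : 0 < δ := by rw [hδ]; positivity
  have hnδ : (n:ℝ) * δ = 1 / 4 := by rw [hδ]; field_simp
  unfold zc
  rw [abs_le]
  constructor
  · have : 0 ≤ (2 * (k:ℝ) + 1) * δ := by positivity
    linarith
  · have : (2 * (k:ℝ) + 1) * δ ≤ 2 * (n * δ) := by nlinarith
    linarith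

lemma sum_bound {n : ℕ} (hn : 100000 ≤ n) {δ : ℝ} (hδ : δ = 1 / (4 * n)) :
    ∑ k ∈ range n, 2 * δ * (1 / 2 + gg δ (zc δ k)) ^ 2 /
      Real.sqrt ((1 + (zc δ k ^ 2 + 1 / 16 - δ ^ 2) ^ 2 + zc δ k ^ 2 / 2) / 2) ≤
      Real.sqrt 2 * (4999 / 40000) := by
  have hn0 : 0 < n := by omega
  have hn' : (0:ℝ) < n := by exact_mod_cast hn0
  have hn1 : (100000:ℝ) ≤ n := by exact_mod_cast hn
  have hδ0 : 0 < δ := by rw [hδ]; positivity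
  have hnδ : (n:ℝ) * δ = 1 / 4 := by rw [hδ]; field_simp
  have hδ1 : δ ≤ 1 / 400000 := by
    rw [hδ]
    apply one_div_le_one_div_of_le (by norm_num) (by linarith)
  have hs2 : 0 < Real.sqrt 2 := Real.sqrt_pos.2 (by norm_num)
  have hterm : ∀ k ∈ range n, 2 * δ * (1 / 2 + gg δ (zc δ k)) ^ 2 /
      Real.sqrt ((1 + (zc δ k ^ 2 + 1 / 16 - δ ^ 2) ^ 2 + zc δ k ^ 2 / 2) / 2) ≤
      Real.sqrt 2 * ((antider (-1 / 4 + 2 * ((k + 1 : ℕ) : ℝ) * δ) -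
        antider (-1 / 4 + 2 * (k : ℝ) * δ)) + δ ^ 3) := by
    intro k hk
    have hz := abs_zc hn0 (mem_range.1 hk) hδ
    have h1 := term_bound hz hδ0 hδ1
    have h2 := antider_step (z := zc δ k) hδ0
    have e1 : zc δ k + δ = -1 / 4 + 2 * ((k + 1 : ℕ) : ℝ) * δ := by
      unfold zc; push_cast; ring
    have e2 : zc δ k - δ = -1 / 4 + 2 * (k : ℝ) * δ := by
      unfold zc; ring
    rw [e1, e2] at h2
    calc 2 * δ * (1 / 2 + gg δ (zc δ k)) ^ 2 /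
      Real.sqrt ((1 + (zc δ k ^ 2 + 1 / 16 - δ ^ 2) ^ 2 + zc δ k ^ 2 / 2) / 2) =
      2 * δ * ((1 / 2 + gg δ (zc δ k)) ^ 2 /
      Real.sqrt ((1 + (zc δ k ^ 2 + 1 / 16 - δ ^ 2) ^ 2 + zc δ k ^ 2 / 2) / 2)) := by ring
      _ ≤ 2 * δ * (Real.sqrt 2 *
        (249516 / 1000000 - 15167 / 1000000 * zc δ k ^ 2 + 956 / 1000 * zc δ k ^ 4)) :=
        mul_le_mul_of_nonneg_left h1 (by positivity)
      _ = Real.sqrt 2 * (2 * δ *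
        (249516 / 1000000 - 15167 / 1000000 * zc δ k ^ 2 + 956 / 1000 * zc δ k ^ 4)) := by ring
      _ ≤ _ := mul_le_mul_of_nonneg_left h2 hs2.le
  refine (Finset.sum_le_sum hterm).trans ?_
  rw [← Finset.mul_sum]
  apply mul_le_mul_of_nonneg_left _ hs2.le
  rw [Finset.sum_add_distrib,
    Finset.sum_range_sub (fun k : ℕ => antider (-1 / 4 + 2 * (k : ℝ) * δ)) n]
  simp only [Finset.sum_const, card_range, nsmul_eq_mul, Nat.cast_zero, mul_zero, zero_mul,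
    add_zero]
  have e3 : -1 / 4 + 2 * (n:ℝ) * δ = 1 / 4 := by
    have : 2 * (n:ℝ) * δ = 2 * (n * δ) := by ring
    rw [this, hnδ]; norm_num
  rw [e3]
  have e4 : (n:ℝ) * δ ^ 3 = δ ^ 2 / 4 := by
    have : (n:ℝ) * δ ^ 3 = (n * δ) * δ ^ 2 := by ring
    rw [this, hnδ]; ring
  rw [e4]
  have h5 : δ ^ 2 ≤ (1 / 400000) ^ 2 := pow_le_pow_left₀ hδ0.le hδ1 2
  unfold antider
  norm_num at h5 ⊢
  linarith

end Vale.Agent.P243
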