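import Vale.Agent.P243.Shadow
import Vale.Agent.P243.SumBound

open MeasureTheory Set

namespace Vale.Agent.P243

/-- A cylinder given by affine coordinates: base, its area, and membership. -/
lemma cyl_piece (v f g : E3) (hv : v ≠ 0) (hf : inner ℝ v f = 0) (hg : inner ℝ v g = 0)
    (c₁ c₂ G a : ℝ) (hG : inner ℝ f f * inner ℝ g g - (inner ℝ f g : ℝ) ^ 2 = G) (hG0 : 0 < G)
    (P : Set (ℝ × ℝ)) (hP : MeasurableSet P) (ha : 0 ≤ a) (hPa : volume P = ENNReal.ofReal a)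
    (B : Set E3) (hB : B = {w | inner ℝ (nrm v) w = 0 ∧ (inner ℝ f w + c₁, inner ℝ g w + c₂) ∈ P}) :
    LebesgueMeasurable (nrm v) B ∧ area (nrm v) B < ⊤ ∧
      (area (nrm v) B).toReal = a / Real.sqrt G ∧
      ∀ x, (inner ℝ f x + c₁, inner ℝ g x + c₂) ∈ P → x ∈ cylinder (nrm v) B := by
  have hnn := norm_nrm hv
  have hf' : inner ℝ (nrm v) f = 0 := by
    unfold nrm; rw [inner_smul_left, hf]; simp
  have hg' : inner ℝ (nrm v) g = 0 := by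
    unfold nrm; rw [inner_smul_left, hg]; simp
  have harea := area_param (nrm v) hnn f g c₁ c₂ hf' hg' G hG hG0 P a hPa
  rw [← hB] at harea
  refine ⟨?_, ?_, ?_, ?_⟩
  · unfold LebesgueMeasurable
    have e : {w : (ℝ ∙ nrm v)ᗮ | (w : E3) ∈ B} =
        (fun w : (ℝ ∙ nrm v)ᗮ => ((inner ℝ f (w : E3) : ℝ) + c₁, (inner ℝ g (w : E3) : ℝ) + c₂))
          ⁻¹' P := by
      ext w
      rw [hB]
      constructor
      · intro h; exact h.2
      · intro h; exact ⟨mem_perp.1 w.2, h⟩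
    rw [e]
    have hcont : Continuous (fun w : (ℝ ∙ nrm v)ᗮ =>
        ((inner ℝ f (w : E3) : ℝ) + c₁, (inner ℝ g (w : E3) : ℝ) + c₂)) := by
      fun_prop
    exact (hcont.measurable hP).nullMeasurableSet
  · rw [harea]; exact ENNReal.ofReal_lt_top
  · rw [harea, ENNReal.toReal_ofReal (by positivity)]
  · intro x hx
    refine ⟨x - inner ℝ (nrm v) x • nrm v, ?_, inner ℝ (nrm v) x, by abel⟩
    rw [hB]
    refine ⟨?_, ?_⟩
    · rw [inner_sub_right, inner_smul_right, real_inner_self_eq_norm_sq, hnn]; ring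
    · have hfc : inner ℝ f (nrm v) = (0:ℝ) := by rw [real_inner_comm]; exact hf'
      have hgc : inner ℝ g (nrm v) = (0:ℝ) := by rw [real_inner_comm]; exact hg'
      have e1 : inner ℝ f (x - inner ℝ (nrm v) x • nrm v) = (inner ℝ f x : ℝ) := by
        rw [inner_sub_right, inner_smul_right, hfc]; ring
      have e2 : inner ℝ g (x - inner ℝ (nrm v) x • nrm v) = (inner ℝ g x : ℝ) := by
        rw [inner_sub_right, inner_smul_right, hgc]; ring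
      rw [e1, e2]; exact hx

/-- the triangular base of a cell -/
def cell (z δ R : ℝ) : Set (ℝ × ℝ) :=
  {x | 2 * (z - δ) * x.1 ≤ x.2 ∧ x.2 ≤ 2 * (z + δ) * x.1 ∧ x.1 ≤ R}

lemma cell_eq {z δ R : ℝ} (hδ : 0 < δ) (hR : 0 < R) :
    cell z δ R = tri (-(z - δ) / (2 * δ * R)) (1 / (4 * δ * R)) 0
      ((z + δ) / (2 * δ * R)) (-1 / (4 * δ * R)) 0 := by
  ext x
  have hp : 0 < 4 * δ * R := by positivity
  have e1 : (-(z - δ) / (2 * δ * R)) * x.1 + (1 / (4 * δ * R)) * x.2 + 0 =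
      (x.2 - 2 * (z - δ) * x.1) / (4 * δ * R) := by field_simp; ring
  have e2 : ((z + δ) / (2 * δ * R)) * x.1 + (-1 / (4 * δ * R)) * x.2 + 0 =
      (2 * (z + δ) * x.1 - x.2) / (4 * δ * R) := by field_simp; ring
  have e3 : (x.2 - 2 * (z - δ) * x.1) / (4 * δ * R) + (2 * (z + δ) * x.1 - x.2) / (4 * δ * R) =
      x.1 / R := by field_simp; ring
  simp only [cell, tri, mem_ofPred_eq]
  rw [e1, e2, e3, div_le_one hR, le_div_iff₀ hp, le_div_iff₀ hp, zero_mul,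
    sub_nonneg, sub_nonneg]

lemma measurable_cell {z δ R : ℝ} (hδ : 0 < δ) (hR : 0 < R) : MeasurableSet (cell z δ R) := by
  rw [cell_eq hδ hR]; exact measurableSet_tri _ _ _ _ _ _

lemma volume_cell {z δ R : ℝ} (hδ : 0 < δ) (hR : 0 < R) :
    volume (cell z δ R) = ENNReal.ofReal (2 * δ * R ^ 2) := by
  have hdet : (-(z - δ) / (2 * δ * R)) * (-1 / (4 * δ * R)) -
      ((z + δ) / (2 * δ * R)) * (1 / (4 * δ * R)) = -(1 / (4 * δ * R ^ 2)) := by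
    field_simp; ring
  rw [cell_eq hδ hR]
  apply volume_tri'
  · rw [hdet]
    have : 0 < 1 / (4 * δ * R ^ 2) := by positivity
    linarith
  · rw [hdet, abs_neg, abs_of_pos (by positivity)]
    field_simp; ring

/-- discrete intermediate value property -/
lemma discrete_ivt (f : ℕ → ℝ) (n : ℕ) (hn : 0 < n) (h0 : f 0 ≤ 0) (h1 : 0 ≤ f n) :
    ∃ k < n, f k ≤ 0 ∧ 0 ≤ f (k + 1) := by
  by_contra hcon
  push Not at hcon
  have : ∀ k ≤ n, f k ≤ 0 ∧ (0 < k → f k < 0) := by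
    intro k
    induction k with
    | zero => intro _; exact ⟨h0, fun h => absurd h (lt_irrefl 0)⟩
    | succ k ih =>
      intro hk
      have h2 := hcon k (by omega) (ih (by omega)).1
      exact ⟨h2.le, fun _ => h2⟩
  have := (this n le_rfl).2 hn
  linarith

noncomputable section

/-- data of the upper cylinders -/
def cc (δ z : ℝ) : ℝ := z ^ 2 + 1 / 16 - δ ^ 2
def dirU (δ z : ℝ) : E3 := !₂[1 - cc δ z, 1 + cc δ z, -z]
def fU (z : ℝ) : E3 := !₂[z / 2, z / 2, 1]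
def gU (δ z : ℝ) : E3 := !₂[(1 + cc δ z) / 2, -(1 - cc δ z) / 2, 0]
/-- data of the lower cylinders -/
def dirL (δ z : ℝ) : E3 := !₂[cc δ z + 1, cc δ z - 1, -z]
def fL (z : ℝ) : E3 := !₂[-z / 2, z / 2, -1]
def gL (δ z : ℝ) : E3 := !₂[(1 - cc δ z) / 2, (1 + cc δ z) / 2, 0]

def RR (δ z : ℝ) : ℝ := 1 / 2 + gg δ z

def baseU (δ z : ℝ) : Set E3 :=
  {w | inner ℝ (nrm (dirU δ z)) w = 0 ∧
    (inner ℝ (fU z) w + 0, inner ℝ (gU δ z) w + 0) ∈ cell z δ (RR δ z)}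

def baseL (δ z : ℝ) : Set E3 :=
  {w | inner ℝ (nrm (dirL δ z)) w = 0 ∧
    (inner ℝ (fL z) w + 1, inner ℝ (gL δ z) w + 0) ∈ cell z δ (RR δ z)}

lemma RR_pos {δ : ℝ} (hδ : 0 < δ) (z : ℝ) : 0 < RR δ z := by
  have := gg_nonneg (z := z) hδ.le
  unfold RR; linarith

lemma pieceU {δ : ℝ} (hδ : 0 < δ) (z : ℝ) :
    dirU δ z ≠ 0 ∧ LebesgueMeasurable (nrm (dirU δ z)) (baseU δ z) ∧
      area (nrm (dirU δ z)) (baseU δ z) < ⊤ ∧
      (area (nrm (dirU δ z)) (baseU δ z)).toReal =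
        (2 * δ * RR δ z ^ 2) / Real.sqrt ((1 + cc δ z ^ 2 + z ^ 2 / 2) / 2) ∧
      ∀ x, (inner ℝ (fU z) x + 0, inner ℝ (gU δ z) x + 0) ∈ cell z δ (RR δ z) →
        x ∈ cylinder (nrm (dirU δ z)) (baseU δ z) := by
  have hne : dirU δ z ≠ 0 := by
    intro h
    have h0 : (dirU δ z) 0 = 0 := by rw [h]; rfl
    have h1 : (dirU δ z) 1 = 0 := by rw [h]; rfl
    simp [dirU] at h0 h1
    linarith
  refine ⟨hne, ?_⟩
  refine cyl_piece (dirU δ z) (fU z) (gU δ z) hne ?_ ?_ 0 0 _ _ ?_ (by positivity) _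
    (measurable_cell hδ (RR_pos hδ z)) (by positivity) (volume_cell hδ (RR_pos hδ z)) _ rfl
  · simp only [inner3]; simp [dirU, fU]; ring
  · simp only [inner3]; simp [dirU, gU]; ring
  · simp only [inner3]; simp [fU, gU]; ring

lemma pieceL {δ : ℝ} (hδ : 0 < δ) (z : ℝ) :
    dirL δ z ≠ 0 ∧ LebesgueMeasurable (nrm (dirL δ z)) (baseL δ z) ∧
      area (nrm (dirL δ z)) (baseL δ z) < ⊤ ∧
      (area (nrm (dirL δ z)) (baseL δ z)).toReal =
        (2 * δ * RR δ z ^ 2) / Real.sqrt ((1 + cc δ z ^ 2 + z ^ 2 / 2) / 2) ∧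
      ∀ x, (inner ℝ (fL z) x + 1, inner ℝ (gL δ z) x + 0) ∈ cell z δ (RR δ z) →
        x ∈ cylinder (nrm (dirL δ z)) (baseL δ z) := by
  have hne : dirL δ z ≠ 0 := by
    intro h
    have h0 : (dirL δ z) 0 = 0 := by rw [h]; rfl
    have h1 : (dirL δ z) 1 = 0 := by rw [h]; rfl
    simp [dirL] at h0 h1
    linarith
  refine ⟨hne, ?_⟩
  refine cyl_piece (dirL δ z) (fL z) (gL δ z) hne ?_ ?_ 1 0 _ _ ?_ (by positivity) _
    (measurable_cell hδ (RR_pos hδ z)) (by positivity) (volume_cell hδ (RR_pos hδ z)) _ rfl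
  · simp only [inner3]; simp [dirL, fL]; ring
  · simp only [inner3]; simp [dirL, gL]; ring
  · simp only [inner3]; simp [fL, gL]; ring

lemma cell_upper {z δ t τ σ R : ℝ} (h1 : ((z - δ) ^ 2 - 1 / 16) * t - τ + 2 * (z - δ) * σ ≤ 0)
    (h2 : 0 ≤ ((z + δ) ^ 2 - 1 / 16) * t - τ + 2 * (z + δ) * σ) :
    (|τ - 2 * z * (σ + z * t) + (z ^ 2 + 1 / 16 - δ ^ 2) * t| ≤ 2 * δ * (σ + z * t)) ∧
    (σ + z * t ≤ R → (σ + z * t, τ + (z ^ 2 + 1 / 16 - δ ^ 2) * t) ∈ cell z δ R) := by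
  refine ⟨?_, fun h => ⟨?_, ?_, h⟩⟩
  · rw [abs_le]; constructor <;> linarith
  · show 2 * (z - δ) * (σ + z * t) ≤ τ + (z ^ 2 + 1 / 16 - δ ^ 2) * t
    linarith
  · show τ + (z ^ 2 + 1 / 16 - δ ^ 2) * t ≤ 2 * (z + δ) * (σ + z * t)
    linarith

lemma cell_lower {w δ t τ s R : ℝ} (h1 : -((w - δ) ^ 2 - 1 / 16) * τ - t + 2 * (w - δ) * s ≤ 0)
    (h2 : 0 ≤ -((w + δ) ^ 2 - 1 / 16) * τ - t + 2 * (w + δ) * s) :
    (|t - 2 * w * (s - w * τ) - (w ^ 2 + 1 / 16 - δ ^ 2) * τ| ≤ 2 * δ * (s - w * τ)) ∧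
    (s - w * τ ≤ R → (s - w * τ, t - (w ^ 2 + 1 / 16 - δ ^ 2) * τ) ∈ cell w δ R) := by
  refine ⟨?_, fun h => ⟨?_, ?_, h⟩⟩
  · rw [abs_le]; constructor <;> linarith
  · show 2 * (w - δ) * (s - w * τ) ≤ t - (w ^ 2 + 1 / 16 - δ ^ 2) * τ
    linarith
  · show t - (w ^ 2 + 1 / 16 - δ ^ 2) * τ ≤ 2 * (w + δ) * (s - w * τ)
    linarith

/-- the covering statement in coordinates -/
lemma covered_real {n : ℕ} (hn : 25 ≤ n) {δ : ℝ} (hδ : δ = 1 / (4 * n)) {t τ σ : ℝ}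
    (ht1 : |t| ≤ (1 - σ) / 2) (hτ1 : |τ| ≤ σ / 2) :
    (∃ k < n, (σ + zc δ k * t, τ + (zc δ k ^ 2 + 1 / 16 - δ ^ 2) * t) ∈
      cell (zc δ k) δ (RR δ (zc δ k))) ∨
    (∃ k < n, (1 - σ - zc δ k * τ, t - (zc δ k ^ 2 + 1 / 16 - δ ^ 2) * τ) ∈
      cell (zc δ k) δ (RR δ (zc δ k))) := by
  have hn0 : 0 < n := by omega
  have hn' : (0:ℝ) < n := by exact_mod_cast hn0
  have hn1 : (25:ℝ) ≤ n := by exact_mod_cast hn
  have hδ0 : 0 < δ := by rw [hδ]; positivity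
  have hnδ : (n:ℝ) * δ = 1 / 4 := by rw [hδ]; field_simp
  have hδ1 : δ ≤ 1 / 100 := by
    rw [hδ]
    apply one_div_le_one_div_of_le (by norm_num) (by linarith)
  have ht2 := abs_le.1 ht1
  have hτ2 := abs_le.1 hτ1
  have e3 : -1 / 4 + 2 * (n:ℝ) * δ = 1 / 4 := by
    have : 2 * (n:ℝ) * δ = 2 * (n * δ) := by ring
    rw [this, hnδ]; norm_num
  -- the upper cell
  obtain ⟨k, hk, hk1, hk2⟩ := discrete_ivt
    (fun k : ℕ => ((-1 / 4 + 2 * (k : ℝ) * δ) ^ 2 - 1 / 16) * t - τ +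
      2 * (-1 / 4 + 2 * (k : ℝ) * δ) * σ) n hn0 (by
        simp only [Nat.cast_zero, mul_zero, zero_mul, add_zero]
        norm_num
        linarith) (by
        simp only [e3]
        norm_num
        linarith)
  obtain ⟨j, hj, hj1, hj2⟩ := discrete_ivt
    (fun k : ℕ => -((-1 / 4 + 2 * (k : ℝ) * δ) ^ 2 - 1 / 16) * τ - t +
      2 * (-1 / 4 + 2 * (k : ℝ) * δ) * (1 - σ)) n hn0 (by
        simp only [Nat.cast_zero, mul_zero, zero_mul, add_zero]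
        norm_num
        linarith) (by
        simp only [e3]
        norm_num
        linarith)
  have ek1 : -1 / 4 + 2 * (k : ℝ) * δ = zc δ k - δ := by unfold zc; ring
  have ek2 : -1 / 4 + 2 * ((k + 1 : ℕ) : ℝ) * δ = zc δ k + δ := by unfold zc; push_cast; ring
  have ej1 : -1 / 4 + 2 * (j : ℝ) * δ = zc δ j - δ := by unfold zc; ring
  have ej2 : -1 / 4 + 2 * ((j + 1 : ℕ) : ℝ) * δ = zc δ j + δ := by unfold zc; push_cast; ring
  simp only [ek1, ek2] at hk1 hk2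
  simp only [ej1, ej2] at hj1 hj2
  have hzk := abs_zc hn0 hk hδ
  have hzj := abs_zc hn0 hj hδ
  have hU := cell_upper (R := RR δ (zc δ k)) hk1 hk2
  have hL := cell_lower (R := RR δ (zc δ j)) hj1 hj2
  have hw := wall (z := zc δ k) (w := zc δ j) (δ := δ) (t := t) (τ := τ)
    (ρ := σ + zc δ k * t) (ρ' := 1 - σ - zc δ j * τ) hzk hzj hδ0 hδ1 (by linarith) (by ring)
    hU.1 hL.1
  rcases hw with hw | hw
  · left
    exact ⟨k, hk, hU.2 hw⟩
  · right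
    exact ⟨j, hj, hL.2 hw⟩

/-- Every point of the tetrahedron lies in one of the cylinders. -/
lemma covered {n : ℕ} (hn : 25 ≤ n) {δ : ℝ} (hδ : δ = 1 / (4 * n)) {x : E3} (hx : x ∈ regTet) :
    (∃ k < n, x ∈ cylinder (nrm (dirU δ (zc δ k))) (baseU δ (zc δ k))) ∨
    (∃ k < n, x ∈ cylinder (nrm (dirL δ (zc δ k))) (baseL δ (zc δ k))) := by
  have hn' : (0:ℝ) < n := by
    have : 0 < n := by omega
    exact_mod_cast this
  have hδ0 : 0 < δ := by rw [hδ]; positivity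
  obtain ⟨hx1, hx2⟩ := hx
  rw [abs_le] at hx1 hx2
  have ht1 : |(x 0 + x 1) / 2| ≤ (1 - x 2) / 2 := by rw [abs_le]; constructor <;> linarith
  have hτ1 : |(x 0 - x 1) / 2| ≤ x 2 / 2 := by rw [abs_le]; constructor <;> linarith
  rcases covered_real hn hδ ht1 hτ1 with ⟨k, hk, h⟩ | ⟨k, hk, h⟩
  · left
    refine ⟨k, hk, (pieceU hδ0 (zc δ k)).2.2.2.2 x ?_⟩
    have iU1 : inner ℝ (fU (zc δ k)) x + 0 = x 2 + zc δ k * ((x 0 + x 1) / 2) := by
      rw [inner3]; simp [fU]; ring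
    have iU2 : inner ℝ (gU δ (zc δ k)) x + 0 =
        (x 0 - x 1) / 2 + (zc δ k ^ 2 + 1 / 16 - δ ^ 2) * ((x 0 + x 1) / 2) := by
      rw [inner3]; simp [gU, cc]; ring
    rw [iU1, iU2]; exact h
  · right
    refine ⟨k, hk, (pieceL hδ0 (zc δ k)).2.2.2.2 x ?_⟩
    have iL1 : inner ℝ (fL (zc δ k)) x + 1 = 1 - x 2 - zc δ k * ((x 0 - x 1) / 2) := by
      rw [inner3]; simp [fL]; ring
    have iL2 : inner ℝ (gL δ (zc δ k)) x + 0 =
        (x 0 + x 1) / 2 - (zc δ k ^ 2 + 1 / 16 - δ ^ 2) * ((x 0 - x 1) / 2) := by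
      rw [inner3]; simp [gL, cc]; ring
    rw [iL1, iL2]; exact h

end

end Vale.Agent.P243
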