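import Vale.Agent.P243.Piece

open MeasureTheory Set

namespace Vale.Agent.P243

lemma exists_coords (u : E3) (hu : ‖u‖ = 1) :
    ∃ e₁ e₂ : E3, inner ℝ e₁ e₁ = (1:ℝ) ∧ inner ℝ e₂ e₂ = (1:ℝ) ∧ inner ℝ e₁ e₂ = (0:ℝ) ∧
      inner ℝ u e₁ = (0:ℝ) ∧ inner ℝ u e₂ = (0:ℝ) ∧
      (∀ x : E3, x = inner ℝ u x • u + inner ℝ e₁ x • e₁ + inner ℝ e₂ x • e₂) ∧
      ∀ S : Set E3, area u S = volume {y : ℝ × ℝ | y.1 • e₁ + y.2 • e₂ ∈ S} := by
  have hu0 : u ≠ 0 := by
    intro h; rw [h] at hu; simp at hu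
  have h2 := finrank_perp hu0
  let b : OrthonormalBasis (Fin 2) ℝ ((ℝ ∙ u)ᗮ : Submodule ℝ E3) :=
    (stdOrthonormalBasis ℝ ((ℝ ∙ u)ᗮ : Submodule ℝ E3)).reindex (finCongr h2)
  have ho := b.orthonormal
  have hin : ∀ i j, inner ℝ (b i : E3) (b j : E3) = if i = j then (1:ℝ) else 0 := by
    intro i j
    exact (orthonormal_iff_ite.1 ho) i j
  have hub : ∀ i, inner ℝ u (b i : E3) = 0 := fun i => mem_perp.1 (b i).2
  have hself : inner ℝ u u = (1:ℝ) := by
    rw [real_inner_self_eq_norm_sq, hu]; norm_num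
  refine ⟨b 0, b 1, ?_, ?_, ?_, hub 0, hub 1, ?_, ?_⟩
  · rw [hin]; simp
  · rw [hin]; simp
  · rw [hin]; simp
  · intro x
    have hw : x - inner ℝ u x • u ∈ ((ℝ ∙ u)ᗮ : Submodule ℝ E3) := by
      rw [mem_perp, inner_sub_right, inner_smul_right, hself]; ring
    have h := b.sum_repr' ⟨x - inner ℝ u x • u, hw⟩
    rw [Fin.sum_univ_two] at h
    have h' := congrArg (Subtype.val) h
    simp only [Submodule.coe_add, Submodule.coe_smul, Submodule.coe_inner] at h'
    have hb : ∀ i, inner ℝ (b i : E3) (x - inner ℝ u x • u) = inner ℝ (b i : E3) x := by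
      intro i
      rw [inner_sub_right, inner_smul_right, real_inner_comm u, hub i]; ring
    rw [hb, hb] at h'
    rw [add_assoc, h']; abel
  · intro S
    let E : ℝ × ℝ ≃ᵐ ((ℝ ∙ u)ᗮ : Submodule ℝ E3) :=
      (MeasurableEquiv.finTwoArrow (α := ℝ)).symm.trans
        ((MeasurableEquiv.toLp 2 (Fin 2 → ℝ)).trans b.measurableEquiv.symm)
    have hE : MeasurePreserving E volume volume :=
      b.measurePreserving_measurableEquiv.symm.comp
        ((EuclideanSpace.volume_preserving_symm_measurableEquiv_toLp (Fin 2)).symm.comp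
          (volume_preserving_finTwoArrow ℝ).symm)
    unfold area
    rw [← hE.measure_preimage_equiv]
    congr 1
    ext y
    have hy : (E y : E3) = y.1 • (b 0 : E3) + y.2 • (b 1 : E3) := by
      have h1 : E y = b.repr.symm (WithLp.toLp 2 ![y.1, y.2]) := rfl
      have h3 := b.sum_repr (E y)
      rw [h1] at h3 ⊢
      rw [Fin.sum_univ_two] at h3
      have h4 := congrArg Subtype.val h3
      rw [← h4]
      simp
    simp only [mem_preimage, mem_ofPred_eq, hy]

end Vale.Agent.P243
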