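import Vale.Agent.P243.Tetra

open MeasureTheory Set

namespace Vale.Agent.P243

noncomputable section

def vv1 : E3 := !₂[2, -1, 0]
def vv2 : E3 := !₂[-3, 4, -1]
def vv3 : E3 := !₂[-1, 0, 5]
def vv4 : E3 := !₂[0, 1, 3]

def F1 : E3 →ₗ[ℝ] ℝ × ℝ := lin2 (1/2) 1 0 0 0 1
def F2 : E3 →ₗ[ℝ] ℝ × ℝ := lin2 1 (3/4) 0 0 (1/4) 1
def F3 : E3 →ₗ[ℝ] ℝ × ℝ := lin2 1 0 (1/5) 0 1 0
def F4 : E3 →ₗ[ℝ] ℝ × ℝ := lin2 1 0 0 0 3 (-1)

def P1 : Set (ℝ × ℝ) := tri 0 (120/23) 0 (-50/23) (-125/23) (75/46)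
def T2a : Set (ℝ × ℝ) := tri (70/59) (350/59) (-105/59) (260/133) (-60/133) (-87/133)
def T2b : Set (ℝ × ℝ) := tri (-140/27) (-140/27) (140/27) (5/2) (1/2) (-5/4)
def P2 : Set (ℝ × ℝ) := T2a ∪ T2b
def T3a : Set (ℝ × ℝ) := tri 0 15 0 (-100/49) (-200/49) (58/49)
def T3b : Set (ℝ × ℝ) := tri (60/19) (-36/19) (-27/95) (-100/41) (-80/41) (50/41)
def P3 : Set (ℝ × ℝ) := T3a ∪ T3b
def P4 : Set (ℝ × ℝ) := tri (280/57) 0 0 (-130/57) (-10/19) (29/38)
def Q1 : Set (ℝ × ℝ) := tri 1 0 0 0 1 0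
def Q4 : Set (ℝ × ℝ) := tri 1 0 0 (-1/4) (1/4) (1/4)

lemma vol_P1 : volume P1 = ENNReal.ofReal (529/12000) := by
  apply volume_tri'
  · norm_num
  · rw [abs_of_nonneg (by norm_num)]; norm_num

lemma vol_T2a : volume T2a = ENNReal.ofReal (7847/190400) := by
  apply volume_tri'
  · norm_num
  · rw [abs_of_nonpos (by norm_num)]; norm_num

lemma vol_T2b : volume T2b = ENNReal.ofReal (27/560) := by
  apply volume_tri'
  · norm_num
  · rw [abs_of_nonneg (by norm_num)]; norm_num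

lemma vol_T3a : volume T3a = ENNReal.ofReal (49/3000) := by
  apply volume_tri'
  · norm_num
  · rw [abs_of_nonneg (by norm_num)]; norm_num

lemma vol_T3b : volume T3b = ENNReal.ofReal (779/16800) := by
  apply volume_tri'
  · norm_num
  · rw [abs_of_nonpos (by norm_num)]; norm_num

lemma vol_P4 : volume P4 = ENNReal.ofReal (3249/16800) := by
  apply volume_tri'
  · norm_num
  · rw [abs_of_nonpos (by norm_num)]; norm_num

lemma vol_Q1 : volume Q1 = ENNReal.ofReal (1/2) := by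
  apply volume_tri'
  · norm_num
  · rw [abs_of_nonneg (by norm_num)]; norm_num

lemma vol_Q4 : volume Q4 = ENNReal.ofReal 2 := by
  apply volume_tri'
  · norm_num
  · rw [abs_of_nonneg (by norm_num)]; norm_num

lemma vol_P2 : volume P2 ≤ ENNReal.ofReal (7847/190400 + 27/560) := by
  rw [ENNReal.ofReal_add (by norm_num) (by norm_num), ← vol_T2a, ← vol_T2b]
  exact measure_union_le _ _

lemma vol_P3 : volume P3 ≤ ENNReal.ofReal (49/3000 + 779/16800) := by
  rw [ENNReal.ofReal_add (by norm_num) (by norm_num), ← vol_T3a, ← vol_T3b]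
  exact measure_union_le _ _

lemma coords_inner (v w : E3) : inner ℝ v w = v 0 * w 0 + v 1 * w 1 + v 2 * w 2 := by
  rw [PiLp.inner_apply, Fin.sum_univ_three]
  simp [mul_comm]

lemma vec_eq_zero {w : E3} (h0 : w 0 = 0) (h1 : w 1 = 0) (h2 : w 2 = 0) : w = 0 := by
  ext i; fin_cases i
  · exact h0
  · exact h1
  · exact h2

lemma piece1 : (LebesgueMeasurable (nrm vv1) (base vv1 F1 P1) ∧
      area (nrm vv1) (base vv1 F1 P1) < ⊤ ∧
      (area (nrm vv1) (base vv1 F1 P1)).toReal /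
        (area (nrm vv1) (shadow (nrm vv1) simplex3)).toReal ≤ (529/12000) / (1/2)) ∧
      ∀ x, F1 x ∈ P1 → x ∈ cylinder (nrm vv1) (base vv1 F1 P1) := by
  refine piece simplex3_compact vv1 ?_ F1 ?_ ?_ P1 Q1 (measurableSet_tri _ _ _ _ _ _)
    (measurableSet_tri _ _ _ _ _ _) ?_ _ _ (by norm_num) (by norm_num) vol_P1.le vol_Q1.ge
  · intro h
    have : (vv1 : E3) 0 = 0 := by rw [h]; rfl
    simp [vv1] at this
  · simp [F1, lin2_apply, vv1]
  · intro w hw hF
    rw [coords_inner] at hw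
    simp only [F1, lin2_apply, Prod.mk_eq_zero] at hF
    obtain ⟨h1, h2⟩ := hF
    simp [vv1] at hw
    apply vec_eq_zero <;> linarith
  · rintro ⟨p, q⟩ ⟨h1, h2, h3⟩
    simp only at h1 h2 h3
    refine ⟨!₂[0, p, q], ?_, ?_⟩
    · refine ⟨?_, ?_, ?_, ?_⟩ <;> simp <;> linarith
    · simp [F1, lin2_apply]

lemma piece2 : (LebesgueMeasurable (nrm vv2) (base vv2 F2 P2) ∧
      area (nrm vv2) (base vv2 F2 P2) < ⊤ ∧
      (area (nrm vv2) (base vv2 F2 P2)).toReal /
        (area (nrm vv2) (shadow (nrm vv2) simplex3)).toReal ≤ (7847/190400 + 27/560) / (1/2)) ∧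
      ∀ x, F2 x ∈ P2 → x ∈ cylinder (nrm vv2) (base vv2 F2 P2) := by
  refine piece simplex3_compact vv2 ?_ F2 ?_ ?_ P2 Q1
    ((measurableSet_tri _ _ _ _ _ _).union (measurableSet_tri _ _ _ _ _ _))
    (measurableSet_tri _ _ _ _ _ _) ?_ _ _ (by norm_num) (by norm_num) vol_P2 vol_Q1.ge
  · intro h
    have : (vv2 : E3) 0 = 0 := by rw [h]; rfl
    simp [vv2] at this
  · simp [F2, lin2_apply, vv2]
  · intro w hw hF
    rw [coords_inner] at hw
    simp only [F2, lin2_apply, Prod.mk_eq_zero] at hF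
    obtain ⟨h1, h2⟩ := hF
    simp [vv2] at hw
    apply vec_eq_zero <;> linarith
  · rintro ⟨p, q⟩ ⟨h1, h2, h3⟩
    simp only at h1 h2 h3
    refine ⟨!₂[p, 0, q], ?_, ?_⟩
    · refine ⟨?_, ?_, ?_, ?_⟩ <;> simp <;> linarith
    · simp [F2, lin2_apply]

lemma piece3 : (LebesgueMeasurable (nrm vv3) (base vv3 F3 P3) ∧
      area (nrm vv3) (base vv3 F3 P3) < ⊤ ∧
      (area (nrm vv3) (base vv3 F3 P3)).toReal /
        (area (nrm vv3) (shadow (nrm vv3) simplex3)).toReal ≤ (49/3000 + 779/16800) / (1/2)) ∧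
      ∀ x, F3 x ∈ P3 → x ∈ cylinder (nrm vv3) (base vv3 F3 P3) := by
  refine piece simplex3_compact vv3 ?_ F3 ?_ ?_ P3 Q1
    ((measurableSet_tri _ _ _ _ _ _).union (measurableSet_tri _ _ _ _ _ _))
    (measurableSet_tri _ _ _ _ _ _) ?_ _ _ (by norm_num) (by norm_num) vol_P3 vol_Q1.ge
  · intro h
    have : (vv3 : E3) 0 = 0 := by rw [h]; rfl
    simp [vv3] at this
  · simp [F3, lin2_apply, vv3]
  · intro w hw hF
    rw [coords_inner] at hw
    simp only [F3, lin2_apply, Prod.mk_eq_zero] at hF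
    obtain ⟨h1, h2⟩ := hF
    simp [vv3] at hw
    apply vec_eq_zero <;> linarith
  · rintro ⟨p, q⟩ ⟨h1, h2, h3⟩
    simp only at h1 h2 h3
    refine ⟨!₂[p, q, 0], ?_, ?_⟩
    · refine ⟨?_, ?_, ?_, ?_⟩ <;> simp <;> linarith
    · simp [F3, lin2_apply]

lemma piece4 : (LebesgueMeasurable (nrm vv4) (base vv4 F4 P4) ∧
      area (nrm vv4) (base vv4 F4 P4) < ⊤ ∧
      (area (nrm vv4) (base vv4 F4 P4)).toReal /
        (area (nrm vv4) (shadow (nrm vv4) simplex3)).toReal ≤ (3249/16800) / 2) ∧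
      ∀ x, F4 x ∈ P4 → x ∈ cylinder (nrm vv4) (base vv4 F4 P4) := by
  refine piece simplex3_compact vv4 ?_ F4 ?_ ?_ P4 Q4 (measurableSet_tri _ _ _ _ _ _)
    (measurableSet_tri _ _ _ _ _ _) ?_ _ _ (by norm_num) (by norm_num) vol_P4.le vol_Q4.ge
  · intro h
    have : (vv4 : E3) 1 = 0 := by rw [h]; rfl
    simp [vv4] at this
  · simp [F4, lin2_apply, vv4]
  · intro w hw hF
    rw [coords_inner] at hw
    simp only [F4, lin2_apply, Prod.mk_eq_zero] at hF
    obtain ⟨h1, h2⟩ := hF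
    simp [vv4] at hw
    apply vec_eq_zero <;> linarith
  · rintro ⟨p, q⟩ ⟨h1, h2, h3⟩
    simp only at h1 h2 h3
    rcases le_total 0 q with hq | hq
    · refine ⟨!₂[p, q / 3, 0], ?_, ?_⟩
      · refine ⟨?_, ?_, ?_, ?_⟩ <;> simp <;> linarith
      · simp [F4, lin2_apply]; ring
    · refine ⟨!₂[p, 0, -q], ?_, ?_⟩
      · refine ⟨?_, ?_, ?_, ?_⟩ <;> simp <;> linarith
      · simp [F4, lin2_apply]

lemma mem_P1 {a b c : ℝ} (hc : 0 ≤ c) (hAB : a + 2 * b + 5 * c ≤ 3/2)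
    (hAC : 29/10 ≤ 5 * a + 10 * b + c) : (a/2 + b, c) ∈ P1 := by
  refine ⟨?_, ?_, ?_⟩ <;> simp only <;> linarith

lemma mem_P2 {p q : ℝ} (hpq : p + q ≤ 1) (hAB : 3/2 ≤ p + 5 * q)
    (h : 87/20 ≤ 13 * p - 3 * q ∨ 5/2 ≤ 5 * p + q) : (p, q) ∈ P2 := by
  by_cases hs : (70/59) * p + (350/59) * q + (-105/59) + ((260/133) * p + (-60/133) * q
      + (-87/133)) ≤ 1
  · by_cases h2 : 87/20 ≤ 13 * p - 3 * q
    · left
      refine ⟨?_, ?_, ?_⟩ <;> simp only <;> linarith
    · right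
      rcases h with h | h
      · exact absurd h h2
      · refine ⟨?_, ?_, ?_⟩ <;> simp only <;> linarith
  · right
    rcases h with h | h <;> refine ⟨?_, ?_, ?_⟩ <;> simp only <;> linarith

lemma mem_P3 {p q : ℝ} (hq : 0 ≤ q) (hCD : 9/20 ≤ 5 * p - 3 * q)
    (h : 5 * p + 10 * q ≤ 29/10 ∨ 5 * p + 4 * q ≤ 5/2) : (p, q) ∈ P3 := by
  by_cases hs : 15 * q + (-100/49) * p + (-200/49) * q + 58/49 ≤ 1
  · by_cases h2 : 5 * p + 10 * q ≤ 29/10
    · left
      refine ⟨?_, ?_, ?_⟩ <;> simp only <;> linarith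
    · right
      rcases h with h | h
      · exact absurd h h2
      · refine ⟨?_, ?_, ?_⟩ <;> simp only <;> linarith
  · right
    rcases h with h | h <;> refine ⟨?_, ?_, ?_⟩ <;> simp only <;> linarith

lemma mem_P4 {p q : ℝ} (hp : 0 ≤ p) (hCD : 5 * p - q ≤ 9/20) (hBD : 13 * p + 3 * q ≤ 87/20) :
    (p, q) ∈ P4 := by
  refine ⟨?_, ?_, ?_⟩ <;> simp only <;> linarith

/-- The four bases' cylinders cover the simplex. -/
lemma covers4 (x : E3) (hx : x ∈ simplex3) :
    F1 x ∈ P1 ∨ F2 x ∈ P2 ∨ F3 x ∈ P3 ∨ F4 x ∈ P4 := by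
  obtain ⟨h0, h1, h2, h3⟩ := hx
  have e1 : F1 x = (x 0 / 2 + x 1, x 2) := by
    simp only [F1, lin2_apply]; ext <;> simp only <;> ring
  have e2 : F2 x = (x 0 + 3/4 * x 1, x 1 / 4 + x 2) := by
    simp only [F2, lin2_apply]; ext <;> simp only <;> ring
  have e3 : F3 x = (x 0 + x 2 / 5, x 1) := by
    simp only [F3, lin2_apply]; ext <;> simp only <;> ring
  have e4 : F4 x = (x 0, 3 * x 1 - x 2) := by
    simp only [F4, lin2_apply]; ext <;> simp only <;> ring
  rw [e1, e2, e3, e4]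
  generalize x 0 = a at *
  generalize x 1 = b at *
  generalize x 2 = c at *
  rcases le_total (a + 2 * b + 5 * c) (3/2) with hAB | hAB
  · rcases le_total (29/10) (5 * a + 10 * b + c) with hAC | hAC
    · left; exact mem_P1 h2 hAB hAC
    · rcases le_total (9/20) (5 * a - 3 * b + c) with hCD | hCD
      · right; right; left
        exact mem_P3 h1 (by linarith) (Or.inl (by linarith))
      · right; right; right
        exact mem_P4 h0 (by linarith) (by linarith)
  · by_cases hBC : 5/2 ≤ 5 * a + 4 * b + c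
    · right; left
      exact mem_P2 (by linarith) (by linarith) (Or.inr (by linarith))
    · by_cases hBD : 87/20 ≤ 13 * a + 9 * b - 3 * c
      · right; left
        exact mem_P2 (by linarith) (by linarith) (Or.inl (by linarith))
      · rcases le_total (9/20) (5 * a - 3 * b + c) with hCD | hCD
        · right; right; left
          exact mem_P3 h1 (by linarith) (Or.inr (by linarith))
        · right; right; right
          exact mem_P4 h0 (by linarith) (by linarith)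

def vF : Fin 4 → E3 := ![vv1, vv2, vv3, vv4]
def FF : Fin 4 → (E3 →ₗ[ℝ] ℝ × ℝ) := ![F1, F2, F3, F4]
def PP : Fin 4 → Set (ℝ × ℝ) := ![P1, P2, P3, P4]

lemma vF_ne (i : Fin 4) : vF i ≠ 0 := by
  intro h
  fin_cases i
  · have : (vv1 : E3) 0 = 0 := by
      have h' : vv1 = 0 := h
      rw [h']; rfl
    simp [vv1] at this
  · have : (vv2 : E3) 0 = 0 := by
      have h' : vv2 = 0 := h
      rw [h']; rfl
    simp [vv2] at this
  · have : (vv3 : E3) 0 = 0 := by
      have h' : vv3 = 0 := h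
      rw [h']; rfl
    simp [vv3] at this
  · have : (vv4 : E3) 1 = 0 := by
      have h' : vv4 = 0 := h
      rw [h']; rfl
    simp [vv4] at this

/-- A covering of the standard simplex by four cylinders. -/
lemma cover4 : IsCylinderCovering simplex3 (fun i => nrm (vF i))
    (fun i => base (vF i) (FF i) (PP i)) := by
  refine ⟨fun i => norm_nrm (vF_ne i), ?_, ?_, ?_, ?_⟩
  · intro i b hb
    exact hb.1
  · intro i
    fin_cases i
    · exact piece1.1.1
    · exact piece2.1.1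
    · exact piece3.1.1
    · exact piece4.1.1
  · intro i
    fin_cases i
    · exact piece1.1.2.1
    · exact piece2.1.2.1
    · exact piece3.1.2.1
    · exact piece4.1.2.1
  · intro x hx
    rw [mem_iUnion]
    rcases covers4 x hx with h | h | h | h
    · exact ⟨0, piece1.2 x h⟩
    · exact ⟨1, piece2.2 x h⟩
    · exact ⟨2, piece3.2 x h⟩
    · exact ⟨3, piece4.2 x h⟩

lemma cover4_relArea : relArea simplex3 (fun i => nrm (vF i))
    (fun i => base (vF i) (FF i) (PP i)) ≤ 93129 / 190400 := by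
  have h : relArea simplex3 (fun i => nrm (vF i)) (fun i => base (vF i) (FF i) (PP i)) =
      (area (nrm vv1) (base vv1 F1 P1)).toReal / (area (nrm vv1) (shadow (nrm vv1) simplex3)).toReal +
      (area (nrm vv2) (base vv2 F2 P2)).toReal / (area (nrm vv2) (shadow (nrm vv2) simplex3)).toReal +
      (area (nrm vv3) (base vv3 F3 P3)).toReal / (area (nrm vv3) (shadow (nrm vv3) simplex3)).toReal +
      (area (nrm vv4) (base vv4 F4 P4)).toReal /
        (area (nrm vv4) (shadow (nrm vv4) simplex3)).toReal := by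
    unfold relArea
    exact Fin.sum_univ_four (fun i : Fin 4 => (area (nrm (vF i)) (base (vF i) (FF i) (PP i))).toReal
      / (area (nrm (vF i)) (shadow (nrm (vF i)) simplex3)).toReal)
  rw [h]
  have h1 := piece1.1.2.2
  have h2 := piece2.1.2.2
  have h3 := piece3.1.2.2
  have h4 := piece4.1.2.2
  calc _ ≤ (529/12000) / (1/2) + (7847/190400 + 27/560) / (1/2) +
        (49/3000 + 779/16800) / (1/2) + (3249/16800) / (2:ℝ) := by gcongr
    _ = _ := by norm_num

lemma relArea_nonneg (K : Set E3) {m : ℕ} (u : Fin m → E3) (B : Fin m → Set E3) :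
    0 ≤ relArea K u B :=
  Finset.sum_nonneg fun _ _ => div_nonneg ENNReal.toReal_nonneg ENNReal.toReal_nonneg

lemma r3_le {K : Set E3} (hK : IsConvexBody K) {m : ℕ} {u : Fin m → E3} {B : Fin m → Set E3}
    (hc : IsCylinderCovering K u B) : r3 ≤ relArea K u B := by
  unfold r3
  refine csInf_le ⟨0, ?_⟩ ⟨K, hK, m, u, B, hc, rfl⟩
  rintro r ⟨K', _, m', u', B', _, rfl⟩
  exact relArea_nonneg _ _ _

end

end Vale.Agent.P243
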