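import Mathlib

open MeasureTheory Set

namespace Vale.Agent.P243

section planar

variable {V : Type} [NormedAddCommGroup V] [InnerProductSpace ℝ V] [FiniteDimensional ℝ V]
  [MeasurableSpace V] [BorelSpace V]

/-- The planar Lebesgue measure (in the inner product space `u^⊥`) of `B ∩ u^⊥`. -/
noncomputable def area (u : V) (B : Set V) : ENNReal := volume {w : (ℝ ∙ u)ᗮ | (w : V) ∈ B}

/-- `B ∩ u^⊥` is Lebesgue measurable in `u^⊥`. -/
def LebesgueMeasurable (u : V) (B : Set V) : Prop :=
  NullMeasurableSet {w : (ℝ ∙ u)ᗮ | (w : V) ∈ B} volume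

end planar

/-- Euclidean three-space. -/
abbrev E3 := EuclideanSpace ℝ (Fin 3)

/-- A convex body: a compact convex set with nonempty interior. -/
def IsConvexBody (K : Set E3) : Prop :=
  IsCompact K ∧ Convex ℝ K ∧ (interior K).Nonempty

/-- The orthogonal projection of `K` onto the plane `u^⊥` (for a unit vector `u`). -/
def shadow (u : E3) (K : Set E3) : Set E3 := {w | inner ℝ u w = 0 ∧ ∃ t : ℝ, w + t • u ∈ K}

/-- The cylinder `B + ℝ u`. -/
def cylinder (u : E3) (B : Set E3) : Set E3 := {x | ∃ b ∈ B, ∃ t : ℝ, x = b + t • u}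

/-- The cylinders `B i + ℝ (u i)`, `i < m`, cover `K`; here the `u i` are unit vectors and the
bases `B i ⊆ (u i)^⊥` are Lebesgue measurable sets of finite planar area. -/
def IsCylinderCovering (K : Set E3) {m : ℕ} (u : Fin m → E3) (B : Fin m → Set E3) : Prop :=
  (∀ i, ‖u i‖ = 1) ∧ (∀ i, ∀ b ∈ B i, inner ℝ (u i) b = 0) ∧
    (∀ i, LebesgueMeasurable (u i) (B i)) ∧ (∀ i, area (u i) (B i) < ⊤) ∧
    K ⊆ ⋃ i, cylinder (u i) (B i)

/-- The directionwise relative area `∑ |B i| / |π_{(u i)^⊥} K|`. -/
noncomputable def relArea (K : Set E3) {m : ℕ} (u : Fin m → E3) (B : Fin m → Set E3) : ℝ :=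
  ∑ i, (area (u i) (B i)).toReal / (area (u i) (shadow (u i) K)).toReal

/-- The constant `r₃`: infimum of the directionwise relative area over all convex bodies in
three-space and all their finite cylinder coverings. -/
noncomputable def r3 : ℝ :=
  sInf {r | ∃ K : Set E3, IsConvexBody K ∧ ∃ (m : ℕ) (u : Fin m → E3) (B : Fin m → Set E3),
    IsCylinderCovering K u B ∧ r = relArea K u B}

/-- The 1-Codimensional Cylinder Covering Conjecture in `ℝ³` (the stronger form of Bang's
half-area question): every finite cylinder covering of a convex body has directionwise relative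
area at least `1/2`. -/
def CylinderCoveringConjecture : Prop :=
  ∀ K : Set E3, IsConvexBody K → ∀ (m : ℕ) (u : Fin m → E3) (B : Fin m → Set E3),
    IsCylinderCovering K u B → 1 / 2 ≤ relArea K u B

end Vale.Agent.P243
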