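import Vale.Agent.P243.Coords
import Vale.Agent.P243.Area

open MeasureTheory Set

namespace Vale.Agent.P243

/-- Parseval in the coordinates of `exists_coords`. -/
lemma parseval {u e₁ e₂ : E3}
    (h : ∀ x : E3, x = inner ℝ u x • u + inner ℝ e₁ x • e₁ + inner ℝ e₂ x • e₂) (x y : E3) :
    inner ℝ x y = inner ℝ u x * inner ℝ u y + inner ℝ e₁ x * inner ℝ e₁ y +
      inner ℝ e₂ x * (inner ℝ e₂ y : ℝ) := by
  conv_lhs => rw [h y]
  simp only [inner_add_right, inner_smul_right]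
  rw [real_inner_comm u x, real_inner_comm e₁ x, real_inner_comm e₂ x]
  ring

/-- Area in a plane `u^⊥` of a set given in affine coordinates. -/
lemma area_param (u : E3) (hu : ‖u‖ = 1) (f g : E3) (c₁ c₂ : ℝ) (hf : inner ℝ u f = 0)
    (hg : inner ℝ u g = 0) (G : ℝ) (hG : inner ℝ f f * inner ℝ g g - (inner ℝ f g : ℝ) ^ 2 = G)
    (hG0 : 0 < G) (P : Set (ℝ × ℝ)) (v : ℝ) (hv : volume P = ENNReal.ofReal v) :
    area u {w | inner ℝ u w = 0 ∧ (inner ℝ f w + c₁, inner ℝ g w + c₂) ∈ P} =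
      ENNReal.ofReal (v / Real.sqrt G) := by
  obtain ⟨e₁, e₂, h11, h22, h12, hu1, hu2, hx, harea⟩ := exists_coords u hu
  rw [harea]
  have hff := parseval hx f f
  have hgg := parseval hx g g
  have hfg := parseval hx f g
  rw [hf] at hff hfg
  rw [hg] at hgg
  simp only [zero_mul, zero_add] at hff hfg hgg
  set f₁ : ℝ := inner ℝ e₁ f with hf₁
  set f₂ : ℝ := inner ℝ e₂ f with hf₂
  set g₁ : ℝ := inner ℝ e₁ g with hg₁
  set g₂ : ℝ := inner ℝ e₂ g with hg₂
  let L : (ℝ × ℝ) →ₗ[ℝ] (ℝ × ℝ) :=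
    { toFun := fun x => (f₁ * x.1 + f₂ * x.2, g₁ * x.1 + g₂ * x.2)
      map_add' := by
        intro x y; ext <;> simp <;> ring
      map_smul' := by
        intro r x; ext <;> simp <;> ring }
  have hdet : LinearMap.det L = f₁ * g₂ - f₂ * g₁ := by
    rw [← LinearMap.det_toMatrix (Module.Basis.finTwoProd ℝ)]
    rw [Matrix.det_fin_two]
    simp [LinearMap.toMatrix_apply, L]
  have hsq : (f₁ * g₂ - f₂ * g₁) ^ 2 = G := by
    rw [← hG, hff, hgg, hfg]; ring
  have habs : |f₁ * g₂ - f₂ * g₁| = Real.sqrt G := by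
    rw [← hsq, Real.sqrt_sq_eq_abs]
  have hne : f₁ * g₂ - f₂ * g₁ ≠ 0 := by
    intro h0
    rw [h0] at hsq
    simp at hsq
    linarith
  have hset : {y : ℝ × ℝ | y.1 • e₁ + y.2 • e₂ ∈
      {w : E3 | inner ℝ u w = 0 ∧ (inner ℝ f w + c₁, inner ℝ g w + c₂) ∈ P}} =
      L ⁻¹' ((fun y => (c₁, c₂) + y) ⁻¹' P) := by
    ext y
    have h1 : inner ℝ u (y.1 • e₁ + y.2 • e₂) = (0:ℝ) := by
      rw [inner_add_right, inner_smul_right, inner_smul_right, hu1, hu2]; ring
    have h2 : inner ℝ f (y.1 • e₁ + y.2 • e₂) = f₁ * y.1 + f₂ * y.2 := by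
      rw [inner_add_right, inner_smul_right, inner_smul_right, real_inner_comm, real_inner_comm e₂]
      rw [← hf₁, ← hf₂]; ring
    have h3 : inner ℝ g (y.1 • e₁ + y.2 • e₂) = g₁ * y.1 + g₂ * y.2 := by
      rw [inner_add_right, inner_smul_right, inner_smul_right, real_inner_comm, real_inner_comm e₂]
      rw [← hg₁, ← hg₂]; ring
    simp only [mem_ofPred_eq, mem_preimage, h1, h2, h3, true_and]
    have : (c₁, c₂) + L y = (f₁ * y.1 + f₂ * y.2 + c₁, g₁ * y.1 + g₂ * y.2 + c₂) := by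
      ext
      · simp [L, add_comm]
      · simp [L, add_comm]
    rw [this]
  rw [hset, Measure.addHaar_preimage_linearMap volume (by rw [hdet]; exact hne), hdet,
    measure_preimage_add, hv, ← ENNReal.ofReal_mul (by positivity)]
  congr 1
  rw [abs_inv, habs]
  field_simp

end Vale.Agent.P243
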