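import Vale.Agent.P243.Scale

open MeasureTheory Set

namespace Vale.Agent.P243

/-- unit vector in direction `v` -/
noncomputable def nrm (v : E3) : E3 := ‖v‖⁻¹ • v

lemma norm_nrm {v : E3} (hv : v ≠ 0) : ‖nrm v‖ = 1 := norm_smul_inv_norm hv

/-- base in `(nrm v)^⊥` given by linear coordinates -/
def base (v : E3) (Φ : E3 →ₗ[ℝ] ℝ × ℝ) (P : Set (ℝ × ℝ)) : Set E3 :=
  {w | inner ℝ (nrm v) w = 0 ∧ Φ w ∈ P}

lemma mem_perp {u w : E3} : w ∈ (ℝ ∙ u)ᗮ ↔ inner ℝ u w = 0 :=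
  Submodule.mem_orthogonal_singleton_iff_inner_right

lemma inner_of_mem {v w : E3} (hv : v ≠ 0) (h : inner ℝ (nrm v) w = 0) : inner ℝ v w = 0 := by
  unfold nrm at h
  rw [inner_smul_left] at h
  have h2 : (‖v‖⁻¹ : ℝ) ≠ 0 := inv_ne_zero (norm_ne_zero_iff.2 hv)
  simpa [h2] using h

lemma base_eq (v : E3) (Φ : E3 →ₗ[ℝ] ℝ × ℝ) (P : Set (ℝ × ℝ)) :
    {w : (ℝ ∙ nrm v)ᗮ | (w : E3) ∈ base v Φ P} = {w : (ℝ ∙ nrm v)ᗮ | Φ (w : E3) ∈ P} := by
  ext w
  constructor
  · intro h; exact h.2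
  · intro h; exact ⟨mem_perp.1 w.2, h⟩

lemma shadow_bounded {K : Set E3} (hK : IsCompact K) (u : E3) :
    area u (shadow u K) < ⊤ := by
  have hsub : {w : (ℝ ∙ u)ᗮ | (w : E3) ∈ shadow u K} ⊆
      ((ℝ ∙ u)ᗮ).orthogonalProjectionOnto '' K := by
    rintro w ⟨hw, t, ht⟩
    refine ⟨_, ht, ?_⟩
    rw [map_add]
    have h1 : ((ℝ ∙ u)ᗮ).orthogonalProjectionOnto (t • u) = 0 := by
      rw [Submodule.orthogonalProjectionOnto_eq_zero_iff, Submodule.orthogonal_orthogonal]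
      exact Submodule.smul_mem _ _ (Submodule.mem_span_singleton_self u)
    rw [h1, add_zero]
    exact Submodule.orthogonalProjectionOnto_mem_subspace_eq_self w
  exact lt_of_le_of_lt (measure_mono hsub)
    (hK.image ((ℝ ∙ u)ᗮ).orthogonalProjectionOnto.continuous).measure_lt_top

lemma piece {K : Set E3} (hK : IsCompact K) (v : E3) (hv : v ≠ 0) (Φ : E3 →ₗ[ℝ] ℝ × ℝ)
    (hΦ : Φ v = 0) (hinj : ∀ w, inner ℝ v w = 0 → Φ w = 0 → w = 0)
    (P Q : Set (ℝ × ℝ)) (hP : MeasurableSet P) (hQ : MeasurableSet Q) (hQK : Q ⊆ Φ '' K)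
    (p q : ℝ) (hp : 0 ≤ p) (hq : 0 < q) (hPp : volume P ≤ ENNReal.ofReal p)
    (hQq : ENNReal.ofReal q ≤ volume Q) :
    (LebesgueMeasurable (nrm v) (base v Φ P) ∧ area (nrm v) (base v Φ P) < ⊤ ∧
      (area (nrm v) (base v Φ P)).toReal / (area (nrm v) (shadow (nrm v) K)).toReal ≤ p / q) ∧
      ∀ x, Φ x ∈ P → x ∈ cylinder (nrm v) (base v Φ P) := by
  have hnn := norm_nrm hv
  have hn : nrm v ≠ 0 := by
    intro h
    rw [h] at hnn; simp at hnn
  have hΦn : Φ (nrm v) = 0 := by simp [nrm, hΦ]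
  obtain ⟨c, hc0, hct, hc⟩ := exists_scale (nrm v) hn Φ
    (fun w hw h => hinj w (inner_of_mem hv (mem_perp.1 hw)) h)
  have hBP : area (nrm v) (base v Φ P) = c * volume P := by
    unfold area
    rw [base_eq]
    exact hc P hP
  have hcont : Continuous (fun w : (ℝ ∙ nrm v)ᗮ => Φ (w : E3)) :=
    (LinearMap.continuous_of_finiteDimensional Φ).comp continuous_subtype_val
  -- projections
  have hproj : ∀ x : E3, Φ (x - inner ℝ (nrm v) x • nrm v) = Φ x := by
    intro x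
    rw [map_sub, map_smul, hΦn, smul_zero, sub_zero]
  have hproj0 : ∀ x : E3, inner ℝ (nrm v) (x - inner ℝ (nrm v) x • nrm v) = 0 := by
    intro x
    rw [inner_sub_right, inner_smul_right, real_inner_self_eq_norm_sq, hnn]
    ring
  refine ⟨⟨?_, ?_, ?_⟩, ?_⟩
  · unfold LebesgueMeasurable
    rw [base_eq]
    exact (hcont.measurable hP).nullMeasurableSet
  · rw [hBP]
    exact ENNReal.mul_lt_top hct.lt_top (lt_of_le_of_lt hPp ENNReal.ofReal_lt_top)
  · -- area ratio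
    have hsub : {w : (ℝ ∙ nrm v)ᗮ | Φ (w : E3) ∈ Q} ⊆
        {w : (ℝ ∙ nrm v)ᗮ | (w : E3) ∈ shadow (nrm v) K} := by
      intro w hw
      obtain ⟨x, hxK, hx⟩ := hQK hw
      refine ⟨mem_perp.1 w.2, inner ℝ (nrm v) x, ?_⟩
      have h1 : Φ ((x - inner ℝ (nrm v) x • nrm v) - (w : E3)) = 0 := by
        rw [map_sub, hproj, hx, sub_self]
      have h2 : inner ℝ (nrm v) ((x - inner ℝ (nrm v) x • nrm v) - (w : E3)) = 0 := by
        rw [inner_sub_right, hproj0, mem_perp.1 w.2, sub_zero]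
      have h3 := hinj _ (inner_of_mem hv h2) h1
      have h4 : x = (w : E3) + inner ℝ (nrm v) x • nrm v := by
        rw [sub_eq_zero, sub_eq_iff_eq_add] at h3
        exact h3
      rw [← h4]; exact hxK
    have hfin := shadow_bounded hK (nrm v)
    have hlow : (c * ENNReal.ofReal q).toReal ≤ (area (nrm v) (shadow (nrm v) K)).toReal := by
      apply ENNReal.toReal_mono hfin.ne
      calc c * ENNReal.ofReal q ≤ c * volume Q := by gcongr
        _ = volume {w : (ℝ ∙ nrm v)ᗮ | Φ (w : E3) ∈ Q} := (hc Q hQ).symm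
        _ ≤ _ := measure_mono hsub
    have hup : (area (nrm v) (base v Φ P)).toReal ≤ (c * ENNReal.ofReal p).toReal := by
      apply ENNReal.toReal_mono (ENNReal.mul_lt_top hct.lt_top ENNReal.ofReal_lt_top).ne
      rw [hBP]
      gcongr
    rw [ENNReal.toReal_mul, ENNReal.toReal_ofReal hq.le] at hlow
    rw [ENNReal.toReal_mul, ENNReal.toReal_ofReal hp] at hup
    have hcpos : 0 < c.toReal := ENNReal.toReal_pos hc0 hct
    have hden : 0 < (area (nrm v) (shadow (nrm v) K)).toReal := lt_of_lt_of_le (by positivity) hlow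
    rw [div_le_div_iff₀ hden hq]
    calc (area (nrm v) (base v Φ P)).toReal * q ≤ (c.toReal * p) * q := by gcongr
      _ = p * (c.toReal * q) := by ring
      _ ≤ p * (area (nrm v) (shadow (nrm v) K)).toReal := by gcongr
  · intro x hx
    refine ⟨x - inner ℝ (nrm v) x • nrm v, ⟨hproj0 x, ?_⟩, inner ℝ (nrm v) x, ?_⟩
    · show Φ _ ∈ P
      rw [hproj]; exact hx
    · abel

end Vale.Agent.P243
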