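import Vale.Agent.P243.Area

open MeasureTheory Set

namespace Vale.Agent.P243

lemma volume_line {a b c : ℝ} (h : a ≠ 0 ∨ b ≠ 0) :
    volume {x : ℝ × ℝ | a * x.1 + b * x.2 + c = 0} = 0 := by
  let L : (ℝ × ℝ) →ₗ[ℝ] (ℝ × ℝ) :=
    { toFun := fun x => (a * x.1 + b * x.2, -b * x.1 + a * x.2)
      map_add' := by
        intro x y; ext <;> simp <;> ring
      map_smul' := by
        intro r x; ext <;> simp <;> ring }
  have hdet : LinearMap.det L = a ^ 2 + b ^ 2 := by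
    rw [← LinearMap.det_toMatrix (Module.Basis.finTwoProd ℝ)]
    rw [Matrix.det_fin_two]
    simp [LinearMap.toMatrix_apply, L]
    ring
  have hne : LinearMap.det L ≠ 0 := by
    rw [hdet]
    rcases h with h | h
    · positivity
    · positivity
  have hset : {x : ℝ × ℝ | a * x.1 + b * x.2 + c = 0} = L ⁻¹' ({-c} ×ˢ univ) := by
    ext x
    simp only [mem_ofPred_eq, mem_preimage, mem_prod, mem_singleton_iff, mem_univ, and_true, L,
      LinearMap.coe_mk, AddHom.coe_mk]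
    constructor
    · intro h; linarith
    · intro h; linarith
  rw [hset, Measure.addHaar_preimage_linearMap volume hne, Measure.volume_eq_prod,
    Measure.prod_prod]
  simp

/-- A triangle inside a convex set. -/
lemma tri_in_convex {C : Set (ℝ × ℝ)} (hC : Convex ℝ C) {P Q T : ℝ × ℝ} (hP : P ∈ C)
    (hQ : Q ∈ C) (hT : T ∈ C)
    (hd : (P.1 - Q.1) * (T.2 - Q.2) - (P.2 - Q.2) * (T.1 - Q.1) ≠ 0) :
    ∃ Δ : Set (ℝ × ℝ), MeasurableSet Δ ∧ Δ ⊆ C ∧
      volume Δ = ENNReal.ofReal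
        (|(P.1 - Q.1) * (T.2 - Q.2) - (P.2 - Q.2) * (T.1 - Q.1)| / 2) ∧
      ∀ x ∈ Δ, 0 ≤ ((P.1 - Q.1) * (x.2 - Q.2) - (P.2 - Q.2) * (x.1 - Q.1)) *
        ((P.1 - Q.1) * (T.2 - Q.2) - (P.2 - Q.2) * (T.1 - Q.1)) := by
  set d := (P.1 - Q.1) * (T.2 - Q.2) - (P.2 - Q.2) * (T.1 - Q.1) with hdd
  set a₁ := (T.2 - Q.2) / d with ha1
  set b₁ := -(T.1 - Q.1) / d with hb1
  set c₁ := (-Q.1 * (T.2 - Q.2) + Q.2 * (T.1 - Q.1)) / d with hc1
  set a₂ := -(P.2 - Q.2) / d with ha2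
  set b₂ := (P.1 - Q.1) / d with hb2
  set c₂ := (Q.1 * (P.2 - Q.2) - Q.2 * (P.1 - Q.1)) / d with hc2
  have hdet : a₁ * b₂ - a₂ * b₁ = 1 / d := by
    rw [ha1, hb1, ha2, hb2]
    field_simp
    rw [hdd]; ring
  refine ⟨{x : ℝ × ℝ | 0 ≤ a₁ * x.1 + b₁ * x.2 + c₁ ∧ 0 ≤ a₂ * x.1 + b₂ * x.2 + c₂ ∧
      (a₁ * x.1 + b₁ * x.2 + c₁) + (a₂ * x.1 + b₂ * x.2 + c₂) ≤ 1}, ?_, ?_, ?_, ?_⟩
  · have h : {x : ℝ × ℝ | 0 ≤ a₁ * x.1 + b₁ * x.2 + c₁ ∧ 0 ≤ a₂ * x.1 + b₂ * x.2 + c₂ ∧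
      (a₁ * x.1 + b₁ * x.2 + c₁) + (a₂ * x.1 + b₂ * x.2 + c₂) ≤ 1} =
      {x : ℝ × ℝ | 0 ≤ a₁ * x.1 + b₁ * x.2 + c₁} ∩
      ({x | 0 ≤ a₂ * x.1 + b₂ * x.2 + c₂} ∩
        {x | (a₁ * x.1 + b₁ * x.2 + c₁) + (a₂ * x.1 + b₂ * x.2 + c₂) ≤ 1}) := by
      ext x; rfl
    rw [h]
    refine MeasurableSet.inter ?_ (MeasurableSet.inter ?_ ?_)
    · exact measurableSet_le measurable_const (by fun_prop)
    · exact measurableSet_le measurable_const (by fun_prop)
    · exact measurableSet_le (by fun_prop) measurable_const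
  · rintro x ⟨h1, h2, h3⟩
    set l := a₁ * x.1 + b₁ * x.2 + c₁ with hl
    set m := a₂ * x.1 + b₂ * x.2 + c₂ with hm
    have hx : x = l • P + (m • T + (1 - l - m) • Q) := by
      have e1 : l * d = (T.2 - Q.2) * x.1 - (T.1 - Q.1) * x.2 +
          (-Q.1 * (T.2 - Q.2) + Q.2 * (T.1 - Q.1)) := by
        rw [hl, ha1, hb1, hc1]; field_simp; ring
      have e2 : m * d = -(P.2 - Q.2) * x.1 + (P.1 - Q.1) * x.2 +
          (Q.1 * (P.2 - Q.2) - Q.2 * (P.1 - Q.1)) := by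
        rw [hm, ha2, hb2, hc2]; field_simp
      ext
      · simp only [Prod.fst_add, Prod.smul_fst, smul_eq_mul]
        apply mul_right_cancel₀ hd
        have : (l * P.1 + (m * T.1 + (1 - l - m) * Q.1)) * d =
          (l * d) * (P.1 - Q.1) + (m * d) * (T.1 - Q.1) + Q.1 * d := by ring
        rw [this, e1, e2, hdd]; ring
      · simp only [Prod.snd_add, Prod.smul_snd, smul_eq_mul]
        apply mul_right_cancel₀ hd
        have : (l * P.2 + (m * T.2 + (1 - l - m) * Q.2)) * d =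
          (l * d) * (P.2 - Q.2) + (m * d) * (T.2 - Q.2) + Q.2 * d := by ring
        rw [this, e1, e2, hdd]; ring
    rw [hx]
    rcases eq_or_lt_of_le (show 0 ≤ 1 - l by linarith) with h0 | h0
    · have hl1 : l = 1 := by linarith
      have hm0 : m = 0 := by linarith
      rw [hl1, hm0]; simpa using hP
    · have hy : (m / (1 - l)) • T + ((1 - l - m) / (1 - l)) • Q ∈ C := by
        apply hC hT hQ (by positivity) (div_nonneg (by linarith) h0.le)
        field_simp; ring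
      have hz := hC hP hy h1 h0.le (by ring)
      convert! hz using 2
      rw [smul_add, smul_smul, smul_smul]
      congr 2 <;> field_simp
  · rw [volume_tri _ _ _ _ _ _ (by rw [hdet]; exact one_div_ne_zero hd), hdet]
    congr 1
    rw [abs_div, abs_one]
    have : |d| ≠ 0 := abs_ne_zero.2 hd
    field_simp
  · rintro x ⟨h1, h2, h3⟩
    have e2 : (a₂ * x.1 + b₂ * x.2 + c₂) * d ^ 2 =
        ((P.1 - Q.1) * (x.2 - Q.2) - (P.2 - Q.2) * (x.1 - Q.1)) * d := by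
      rw [ha2, hb2, hc2]; field_simp; ring
    rw [← e2]
    positivity

lemma abs_sub_le_of_mul_nonneg {a b : ℝ} (h : 0 ≤ a * b) (hab : |a| ≤ |b|) :
    |a - b| ≤ |b| := by
  apply sq_le_sq.1
  have h1 : |a| * |a| ≤ |a| * |b| := mul_le_mul_of_nonneg_left hab (abs_nonneg a)
  rw [abs_mul_abs_self, ← abs_mul, abs_of_nonneg h] at h1
  nlinarith

lemma half_abs_sub_of_mul_neg {a b : ℝ} (h : a * b < 0) :
    |a - b| / 2 = |a| / 2 + |b| / 2 := by
  rcases mul_neg_iff.1 h with ⟨ha, hb⟩ | ⟨ha, hb⟩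
  · rw [abs_of_pos ha, abs_of_neg hb, abs_of_pos (by linarith)]; ring
  · rw [abs_of_neg ha, abs_of_pos hb, abs_of_neg (by linarith)]; ring

/-- A convex set containing the four points `P, Q, R, S` has area at least
`|(P - Q) × (R - S)| / 2`. -/
lemma volume_convex_ge {C : Set (ℝ × ℝ)} (hC : Convex ℝ C) {P Q R S : ℝ × ℝ} (hP : P ∈ C)
    (hQ : Q ∈ C) (hR : R ∈ C) (hS : S ∈ C) :
    ENNReal.ofReal (|(P.1 - Q.1) * (R.2 - S.2) - (P.2 - Q.2) * (R.1 - S.1)| / 2) ≤ volume C := by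
  set dR := (P.1 - Q.1) * (R.2 - Q.2) - (P.2 - Q.2) * (R.1 - Q.1) with hdR
  set dS := (P.1 - Q.1) * (S.2 - Q.2) - (P.2 - Q.2) * (S.1 - Q.1) with hdS
  have hkey : (P.1 - Q.1) * (R.2 - S.2) - (P.2 - Q.2) * (R.1 - S.1) = dR - dS := by
    rw [hdR, hdS]; ring
  rw [hkey]
  -- single triangle bounds
  have one : ∀ T ∈ C, ENNReal.ofReal
      (|(P.1 - Q.1) * (T.2 - Q.2) - (P.2 - Q.2) * (T.1 - Q.1)| / 2) ≤ volume C := by
    intro T hT
    by_cases hd : (P.1 - Q.1) * (T.2 - Q.2) - (P.2 - Q.2) * (T.1 - Q.1) = 0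
    · rw [hd]; simp
    · obtain ⟨Δ, _, hsub, hvol, _⟩ := tri_in_convex hC hP hQ hT hd
      rw [← hvol]; exact measure_mono hsub
  rcases le_or_gt 0 (dR * dS) with hprod | hprod
  · -- same side
    rcases le_total |dR| |dS| with hle | hle
    · refine le_trans (ENNReal.ofReal_le_ofReal ?_) (one S hS)
      rw [← hdS]
      have : |dR - dS| ≤ |dS| := abs_sub_le_of_mul_nonneg hprod hle
      linarith
    · refine le_trans (ENNReal.ofReal_le_ofReal ?_) (one R hR)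
      rw [← hdR]
      have : |dR - dS| ≤ |dR| := by
        rw [abs_sub_comm]
        exact abs_sub_le_of_mul_nonneg (by rwa [mul_comm] at hprod) hle
      linarith
  · have hR0 : dR ≠ 0 := by
      intro h; rw [h] at hprod; simp at hprod
    have hS0 : dS ≠ 0 := by
      intro h; rw [h] at hprod; simp at hprod
    obtain ⟨ΔR, hmR, hsR, hvR, hpR⟩ := tri_in_convex hC hP hQ hR hR0
    obtain ⟨ΔS, hmS, hsS, hvS, hpS⟩ := tri_in_convex hC hP hQ hS hS0
    have hdisj : AEDisjoint volume ΔR ΔS := by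
      have hsub : ΔR ∩ ΔS ⊆ {x : ℝ × ℝ | (-(P.2 - Q.2)) * x.1 + (P.1 - Q.1) * x.2 +
          ((P.2 - Q.2) * Q.1 - (P.1 - Q.1) * Q.2) = 0} := by
        rintro x ⟨hxR, hxS⟩
        have h1 := hpR x hxR
        have h2 := hpS x hxS
        rw [← hdR] at h1
        rw [← hdS] at h2
        set e := (P.1 - Q.1) * (x.2 - Q.2) - (P.2 - Q.2) * (x.1 - Q.1) with he
        have he0 : e = 0 := by
          by_contra hne
          have h3 : 0 ≤ (e * dR) * (e * dS) := mul_nonneg h1 h2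
          have h4 : (e * dR) * (e * dS) = e ^ 2 * (dR * dS) := by ring
          have h5 : 0 < e ^ 2 := by positivity
          have h6 := mul_neg_of_pos_of_neg h5 hprod
          rw [h4] at h3
          exact absurd h6 (not_lt.2 h3)
        show (-(P.2 - Q.2)) * x.1 + (P.1 - Q.1) * x.2 +
          ((P.2 - Q.2) * Q.1 - (P.1 - Q.1) * Q.2) = 0
        rw [← he0, he]; ring
      have hne : (-(P.2 - Q.2)) ≠ 0 ∨ (P.1 - Q.1) ≠ 0 := by
        by_contra hcon
        push Not at hcon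
        apply hR0
        rw [hdR, hcon.2]
        have : P.2 - Q.2 = 0 := by linarith [hcon.1]
        rw [this]; ring
      exact measure_mono_null hsub (volume_line hne)
    have hun : volume (ΔR ∪ ΔS) = volume ΔR + volume ΔS :=
      measure_union₀ hmS.nullMeasurableSet hdisj
    calc ENNReal.ofReal (|dR - dS| / 2) = ENNReal.ofReal (|dR| / 2 + |dS| / 2) := by
          congr 1
          exact half_abs_sub_of_mul_neg hprod
      _ = volume ΔR + volume ΔS := by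
          rw [ENNReal.ofReal_add (by positivity) (by positivity), hvR, hvS]
      _ = volume (ΔR ∪ ΔS) := hun.symm
      _ ≤ volume C := measure_mono (union_subset hsR hsS)

end Vale.Agent.P243
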