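import Vale.Agent.P243.Defs

open MeasureTheory Set

namespace Vale.Agent.P243



lemma finrank_perp {u : E3} (hu : u ≠ 0) : Module.finrank ℝ ((ℝ ∙ u)ᗮ : Submodule ℝ E3) = 2 := by
  have h := Submodule.finrank_add_finrank_orthogonal (ℝ ∙ u)
  rw [finrank_span_singleton hu, finrank_euclideanSpace_fin] at h
  omega

/-- Lebesgue measure on `u^⊥` is, in linear coordinates `Φ`, a multiple of planar Lebesgue measure. -/
lemma exists_scale (u : E3) (hu : u ≠ 0) (Φ : E3 →ₗ[ℝ] ℝ × ℝ)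
    (hinj : ∀ w ∈ (ℝ ∙ u)ᗮ, Φ w = 0 → w = 0) :
    ∃ c : ENNReal, c ≠ 0 ∧ c ≠ ⊤ ∧ ∀ S : Set (ℝ × ℝ), MeasurableSet S →
      volume {w : ((ℝ ∙ u)ᗮ : Submodule ℝ E3) | Φ (w : E3) ∈ S} = c * volume S := by
  let P : Submodule ℝ E3 := (ℝ ∙ u)ᗮ
  let L₀ : P →ₗ[ℝ] ℝ × ℝ := Φ ∘ₗ P.subtype
  have hL₀ : Function.Injective L₀ := by
    rw [← LinearMap.ker_eq_bot, LinearMap.ker_eq_bot']
    intro w hw
    exact Subtype.ext (hinj w w.2 hw)
  have hfr : Module.finrank ℝ P = Module.finrank ℝ (ℝ × ℝ) := by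
    rw [finrank_perp hu]; simp
  let L : P ≃ₗ[ℝ] ℝ × ℝ := LinearEquiv.ofInjectiveOfFinrankEq L₀ hL₀ hfr
  have hL : ∀ w : P, L w = Φ (w : E3) := by
    intro w; rfl
  let Lc : P ≃L[ℝ] ℝ × ℝ := L.toContinuousLinearEquiv
  have hLc : ∀ w : P, Lc w = Φ (w : E3) := hL
  let ν : Measure (ℝ × ℝ) := (volume : Measure P).map Lc
  have : ν.IsAddHaarMeasure := Lc.isAddHaarMeasure_map volume
  have key : ν = ν.addHaarScalarFactor (volume : Measure (ℝ × ℝ)) • (volume : Measure (ℝ × ℝ)) :=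
    Measure.isAddLeftInvariant_eq_smul ν volume
  refine ⟨(ν.addHaarScalarFactor (volume : Measure (ℝ × ℝ)) : ENNReal), ?_, ENNReal.coe_ne_top, ?_⟩
  · have := Measure.addHaarScalarFactor_pos_of_isAddHaarMeasure ν (volume : Measure (ℝ × ℝ))
    exact_mod_cast this.ne'
  · intro S hS
    have h1 : ν S = volume {w : P | Φ (w : E3) ∈ S} := by
      show (volume : Measure P).map Lc S = _
      rw [Measure.map_apply Lc.continuous.measurable hS]
      rfl
    rw [← h1]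
    have h2 := congrArg (fun m : Measure (ℝ × ℝ) => m S) key
    simpa using h2

end Vale.Agent.P243
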