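import Vale.Agent.P243.Piece
import Vale.Agent.P243.Area

open MeasureTheory Set

namespace Vale.Agent.P243

/-- The standard simplex. -/
def simplex3 : Set E3 := {x | 0 ≤ x 0 ∧ 0 ≤ x 1 ∧ 0 ≤ x 2 ∧ x 0 + x 1 + x 2 ≤ 1}

lemma continuous_coord (i : Fin 3) : Continuous (fun x : E3 => x i) := by fun_prop

lemma simplex3_closed : IsClosed simplex3 := by
  have h : simplex3 = {x : E3 | 0 ≤ x 0} ∩ ({x | 0 ≤ x 1} ∩ ({x | 0 ≤ x 2} ∩
      {x | x 0 + x 1 + x 2 ≤ 1})) := by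
    ext x; rfl
  rw [h]
  refine (isClosed_le continuous_const (continuous_coord 0)).inter
    ((isClosed_le continuous_const (continuous_coord 1)).inter
      ((isClosed_le continuous_const (continuous_coord 2)).inter
        (isClosed_le ?_ continuous_const)))
  exact ((continuous_coord 0).add (continuous_coord 1)).add (continuous_coord 2)

lemma simplex3_compact : IsCompact simplex3 := by
  apply Metric.isCompact_of_isClosed_isBounded simplex3_closed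
  rw [isBounded_iff_forall_norm_le]
  refine ⟨Real.sqrt 3, fun x hx => ?_⟩
  obtain ⟨h0, h1, h2, h3⟩ := hx
  rw [EuclideanSpace.norm_eq]
  apply Real.sqrt_le_sqrt
  rw [Fin.sum_univ_three]
  simp only [Real.norm_eq_abs, sq_abs]
  nlinarith

lemma simplex3_convex : Convex ℝ simplex3 := by
  intro x hx y hy a b ha hb hab
  obtain ⟨h0, h1, h2, h3⟩ := hx
  obtain ⟨k0, k1, k2, k3⟩ := hy
  refine ⟨?_, ?_, ?_, ?_⟩
  · simp only [PiLp.add_apply, PiLp.smul_apply, smul_eq_mul]; positivity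
  · simp only [PiLp.add_apply, PiLp.smul_apply, smul_eq_mul]; positivity
  · simp only [PiLp.add_apply, PiLp.smul_apply, smul_eq_mul]; positivity
  · simp only [PiLp.add_apply, PiLp.smul_apply, smul_eq_mul]; nlinarith

lemma simplex3_interior : (interior simplex3).Nonempty := by
  refine ⟨!₂[1/4, 1/4, 1/4], ?_⟩
  rw [mem_interior]
  refine ⟨{x : E3 | 0 < x 0} ∩ ({x | 0 < x 1} ∩ ({x | 0 < x 2} ∩ {x | x 0 + x 1 + x 2 < 1})),
    ?_, ?_, ?_⟩
  · rintro x ⟨h0, h1, h2, h3⟩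
    have h0' : 0 < x 0 := h0
    have h1' : 0 < x 1 := h1
    have h2' : 0 < x 2 := h2
    have h3' : x 0 + x 1 + x 2 < 1 := h3
    exact ⟨h0'.le, h1'.le, h2'.le, h3'.le⟩
  · refine (isOpen_lt continuous_const (continuous_coord 0)).inter
      ((isOpen_lt continuous_const (continuous_coord 1)).inter
        ((isOpen_lt continuous_const (continuous_coord 2)).inter
          (isOpen_lt ?_ continuous_const)))
    exact ((continuous_coord 0).add (continuous_coord 1)).add (continuous_coord 2)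
  · refine ⟨?_, ?_, ?_, ?_⟩
    · show (0:ℝ) < (!₂[1/4, 1/4, 1/4] : E3) 0; simp
    · show (0:ℝ) < (!₂[1/4, 1/4, 1/4] : E3) 1; simp
    · show (0:ℝ) < (!₂[1/4, 1/4, 1/4] : E3) 2; simp
    · show (!₂[1/4, 1/4, 1/4] : E3) 0 + (!₂[1/4, 1/4, 1/4] : E3) 1 +
        (!₂[1/4, 1/4, 1/4] : E3) 2 < (1:ℝ)
      simp; norm_num

lemma simplex3_body : IsConvexBody simplex3 :=
  ⟨simplex3_compact, simplex3_convex, simplex3_interior⟩

/-- linear map given by two functionals -/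
noncomputable def lin2 (a b c a' b' c' : ℝ) : E3 →ₗ[ℝ] ℝ × ℝ where
  toFun x := (a * x 0 + b * x 1 + c * x 2, a' * x 0 + b' * x 1 + c' * x 2)
  map_add' x y := by ext <;> simp <;> ring
  map_smul' r x := by ext <;> simp <;> ring

lemma lin2_apply (a b c a' b' c' : ℝ) (x : E3) : lin2 a b c a' b' c' x =
    (a * x 0 + b * x 1 + c * x 2, a' * x 0 + b' * x 1 + c' * x 2) := rfl

/-- closed half planes are measurable -/
lemma meas_half (a b c : ℝ) : MeasurableSet {x : ℝ × ℝ | 0 ≤ a * x.1 + b * x.2 + c} := by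
  apply measurableSet_le measurable_const
  fun_prop

/-- triangle from two affine functionals -/
def tri (a₁ b₁ c₁ a₂ b₂ c₂ : ℝ) : Set (ℝ × ℝ) :=
  {x : ℝ × ℝ | 0 ≤ a₁ * x.1 + b₁ * x.2 + c₁ ∧ 0 ≤ a₂ * x.1 + b₂ * x.2 + c₂ ∧
      (a₁ * x.1 + b₁ * x.2 + c₁) + (a₂ * x.1 + b₂ * x.2 + c₂) ≤ 1}

lemma measurableSet_tri (a₁ b₁ c₁ a₂ b₂ c₂ : ℝ) : MeasurableSet (tri a₁ b₁ c₁ a₂ b₂ c₂) := by
  have h : tri a₁ b₁ c₁ a₂ b₂ c₂ = {x : ℝ × ℝ | 0 ≤ a₁ * x.1 + b₁ * x.2 + c₁} ∩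
      ({x | 0 ≤ a₂ * x.1 + b₂ * x.2 + c₂} ∩
        {x | (a₁ * x.1 + b₁ * x.2 + c₁) + (a₂ * x.1 + b₂ * x.2 + c₂) ≤ 1}) := by
    ext x; rfl
  rw [h]
  refine (meas_half a₁ b₁ c₁).inter ((meas_half a₂ b₂ c₂).inter ?_)
  exact measurableSet_le (by fun_prop) measurable_const

lemma volume_tri' (a₁ b₁ c₁ a₂ b₂ c₂ r : ℝ) (h : a₁ * b₂ - a₂ * b₁ ≠ 0)
    (hr : 1 / (2 * |a₁ * b₂ - a₂ * b₁|) = r) :
    volume (tri a₁ b₁ c₁ a₂ b₂ c₂) = ENNReal.ofReal r := by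
  unfold tri
  rw [volume_tri a₁ b₁ c₁ a₂ b₂ c₂ h, hr]

end Vale.Agent.P243
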