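import Vale.Agent.P243.Gram
import Vale.Agent.P243.Quad
import Vale.Agent.P243.Tetra

open MeasureTheory Set

namespace Vale.Agent.P243

lemma inner3 (v w : E3) : inner ℝ v w = v 0 * w 0 + v 1 * w 1 + v 2 * w 2 := by
  rw [PiLp.inner_apply, Fin.sum_univ_three]
  simp [mul_comm]

/-- Lower bound for the area of a projection from four points of the body. -/
lemma shadow_ge {K : Set E3} (hK : IsCompact K) (hc : Convex ℝ K) {u : E3} (hu : ‖u‖ = 1)
    {P Q R S : E3} (hP : P ∈ K) (hQ : Q ∈ K) (hR : R ∈ K) (hS : S ∈ K) (r : ℝ)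
    (hr : (2 * r) ^ 2 =
      (inner ℝ (P - Q) (P - Q) - (inner ℝ u (P - Q) : ℝ) ^ 2) *
      (inner ℝ (R - S) (R - S) - (inner ℝ u (R - S) : ℝ) ^ 2) -
      (inner ℝ (P - Q) (R - S) - inner ℝ u (P - Q) * (inner ℝ u (R - S) : ℝ)) ^ 2) :
    r ≤ (area u (shadow u K)).toReal := by
  obtain ⟨e₁, e₂, h11, h22, h12, hu1, hu2, hx, harea⟩ := exists_coords u hu
  have hself : inner ℝ u u = (1:ℝ) := by
    rw [real_inner_self_eq_norm_sq, hu]; norm_num
  have hfin := shadow_bounded hK u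
  rw [harea] at hfin ⊢
  set C : Set (ℝ × ℝ) := {y : ℝ × ℝ | y.1 • e₁ + y.2 • e₂ ∈ shadow u K} with hC
  have hCc : Convex ℝ C := by
    rintro y ⟨hy1, t, ht⟩ z ⟨hz1, s, hs⟩ a b ha hb hab
    refine ⟨?_, a * t + b * s, ?_⟩
    · rw [inner_add_right, inner_smul_right, inner_smul_right, hu1, hu2]; ring
    · have := hc ht hs ha hb hab
      convert! this using 1
      simp only [Prod.fst_add, Prod.smul_fst, Prod.snd_add, Prod.smul_snd, smul_eq_mul]
      module
  have hmem : ∀ T ∈ K, ((inner ℝ e₁ T : ℝ), (inner ℝ e₂ T : ℝ)) ∈ C := by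
    intro T hT
    refine ⟨?_, inner ℝ u T, ?_⟩
    · rw [inner_add_right, inner_smul_right, inner_smul_right, hu1, hu2]; ring
    · have h := hx T
      convert! hT using 1
      conv_rhs => rw [h]
      simp only
      abel
  have hge := volume_convex_ge hCc (hmem P hP) (hmem Q hQ) (hmem R hR) (hmem S hS)
  have hge' := ENNReal.toReal_mono hfin.ne hge
  rw [ENNReal.toReal_ofReal (by positivity)] at hge'
  refine le_trans ?_ hge'
  simp only [← inner_sub_right]
  set v := P - Q with hv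
  set w := R - S with hw
  have hvv := parseval hx v v
  have hww := parseval hx w w
  have hvw := parseval hx v w
  have hsq : (inner ℝ e₁ v * inner ℝ e₂ w - inner ℝ e₂ v * (inner ℝ e₁ w : ℝ)) ^ 2 =
      (2 * r) ^ 2 := by
    rw [hr, hvv, hww, hvw]; ring
  have habs : |inner ℝ e₁ v * inner ℝ e₂ w - inner ℝ e₂ v * (inner ℝ e₁ w : ℝ)| = |2 * r| :=
    (sq_eq_sq_iff_abs_eq_abs _ _).1 hsq
  rw [habs]
  have := le_abs_self (2 * r)
  linarith

/-- The regular tetrahedron inscribed in the unit cube `[-1/2,1/2]² × [0,1]`. -/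
def regTet : Set E3 := {x | |x 0 + x 1| ≤ 1 - x 2 ∧ |x 0 - x 1| ≤ x 2}

lemma regTet_closed : IsClosed regTet := by
  have h : regTet = {x : E3 | |x 0 + x 1| ≤ 1 - x 2} ∩ {x | |x 0 - x 1| ≤ x 2} := by
    ext x; rfl
  rw [h]
  have h0 := continuous_coord 0
  have h1 := continuous_coord 1
  have h2 := continuous_coord 2
  exact (isClosed_le (h0.add h1).abs (continuous_const.sub h2)).inter
    (isClosed_le (h0.sub h1).abs h2)

lemma regTet_compact : IsCompact regTet := by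
  apply Metric.isCompact_of_isClosed_isBounded regTet_closed
  rw [isBounded_iff_forall_norm_le]
  refine ⟨Real.sqrt 3, fun x hx => ?_⟩
  obtain ⟨h1, h2⟩ := hx
  rw [abs_le] at h1 h2
  rw [EuclideanSpace.norm_eq]
  apply Real.sqrt_le_sqrt
  rw [Fin.sum_univ_three]
  simp only [Real.norm_eq_abs, sq_abs]
  have a0 : x 0 ^ 2 ≤ 1 := by rw [sq_le_one_iff_abs_le_one, abs_le]; constructor <;> linarith
  have a1 : x 1 ^ 2 ≤ 1 := by rw [sq_le_one_iff_abs_le_one, abs_le]; constructor <;> linarith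
  have a2 : x 2 ^ 2 ≤ 1 := by rw [sq_le_one_iff_abs_le_one, abs_le]; constructor <;> linarith
  linarith

lemma regTet_convex : Convex ℝ regTet := by
  intro x hx y hy a b ha hb hab
  obtain ⟨h1, h2⟩ := hx
  obtain ⟨k1, k2⟩ := hy
  rw [abs_le] at h1 h2 k1 k2
  refine ⟨?_, ?_⟩ <;> rw [abs_le] <;>
    simp only [PiLp.add_apply, PiLp.smul_apply, smul_eq_mul] <;> constructor <;> nlinarith

lemma regTet_interior : (interior regTet).Nonempty := by
  refine ⟨!₂[0, 0, 1/2], ?_⟩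
  rw [mem_interior]
  have h0 := continuous_coord 0
  have h1 := continuous_coord 1
  have h2 := continuous_coord 2
  refine ⟨{x : E3 | |x 0 + x 1| < 1 - x 2} ∩ {x | |x 0 - x 1| < x 2}, ?_, ?_, ?_⟩
  · rintro x ⟨h1, h2⟩
    exact ⟨le_of_lt h1, le_of_lt h2⟩
  · exact (isOpen_lt (h0.add h1).abs (continuous_const.sub h2)).inter
      (isOpen_lt (h0.sub h1).abs h2)
  · refine ⟨?_, ?_⟩
    · show |(!₂[0, 0, 1/2] : E3) 0 + (!₂[0, 0, 1/2] : E3) 1| < 1 - (!₂[0, 0, 1/2] : E3) 2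
      simp; norm_num
    · show |(!₂[0, 0, 1/2] : E3) 0 - (!₂[0, 0, 1/2] : E3) 1| < (!₂[0, 0, 1/2] : E3) 2
      simp

lemma regTet_body : IsConvexBody regTet := ⟨regTet_compact, regTet_convex, regTet_interior⟩

noncomputable section

def vA : E3 := !₂[1/2, 1/2, 0]
def vB : E3 := !₂[-1/2, -1/2, 0]
def vC : E3 := !₂[1/2, -1/2, 1]
def vD : E3 := !₂[-1/2, 1/2, 1]

lemma vA_mem : vA ∈ regTet := by
  refine ⟨?_, ?_⟩ <;> simp [vA]
  norm_num
lemma vB_mem : vB ∈ regTet := by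
  refine ⟨?_, ?_⟩ <;> simp [vB]
lemma vC_mem : vC ∈ regTet := by
  refine ⟨?_, ?_⟩ <;> simp [vC] <;> norm_num
lemma vD_mem : vD ∈ regTet := by
  refine ⟨?_, ?_⟩ <;> simp [vD] <;> norm_num

/-- Every orthogonal projection of the regular tetrahedron (edge `√2`) has area `≥ √2/2`. -/
lemma regTet_shadow_ge {u : E3} (hu : ‖u‖ = 1) :
    Real.sqrt 2 / 2 ≤ (area u (shadow u regTet)).toReal := by
  have hself : u 0 ^ 2 + u 1 ^ 2 + u 2 ^ 2 = 1 := by
    have : inner ℝ u u = (1:ℝ) := by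
      rw [real_inner_self_eq_norm_sq, hu]; norm_num
    rw [inner3] at this; linarith
  have hK := regTet_compact
  have hc := regTet_convex
  have two : ∀ s : ℝ, s = 1 ∨ s = -1 → s ^ 2 = 1 := by
    rintro s (rfl | rfl) <;> norm_num
  have e2 : ∀ s : ℝ, s = 1 ∨ s = -1 → s * u 2 ≤ (area u (shadow u regTet)).toReal := by
    intro s hs
    have hs2 := two s hs
    apply shadow_ge hK hc hu vA_mem vB_mem vC_mem vD_mem
    simp only [inner3]
    simp [vA, vB, vC, vD]
    linear_combination (4 * (u 2) ^ 2) * hs2 + 4 * hself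
  have e0 : ∀ s : ℝ, s = 1 ∨ s = -1 → s * u 0 ≤ (area u (shadow u regTet)).toReal := by
    intro s hs
    have hs2 := two s hs
    apply shadow_ge hK hc hu vA_mem vC_mem vB_mem vD_mem
    simp only [inner3]
    simp [vA, vB, vC, vD]
    linear_combination (4 * (u 0) ^ 2) * hs2 + 4 * hself
  have e1 : ∀ s : ℝ, s = 1 ∨ s = -1 → s * u 1 ≤ (area u (shadow u regTet)).toReal := by
    intro s hs
    have hs2 := two s hs
    apply shadow_ge hK hc hu vA_mem vD_mem vB_mem vC_mem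
    simp only [inner3]
    simp [vA, vB, vC, vD]
    linear_combination (4 * (u 1) ^ 2) * hs2 + 4 * hself
  have f1 : ∀ s : ℝ, s = 1 ∨ s = -1 → s * ((-u 0 + u 1 + u 2) / 2) ≤
      (area u (shadow u regTet)).toReal := by
    intro s hs
    have hs2 := two s hs
    apply shadow_ge hK hc hu vA_mem vB_mem vA_mem vC_mem
    simp only [inner3]
    simp [vA, vB, vC]
    linear_combination (-u 0 + u 1 + u 2) ^ 2 * hs2 + 3 * hself
  have f2 : ∀ s : ℝ, s = 1 ∨ s = -1 → s * ((u 0 - u 1 + u 2) / 2) ≤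
      (area u (shadow u regTet)).toReal := by
    intro s hs
    have hs2 := two s hs
    apply shadow_ge hK hc hu vA_mem vB_mem vA_mem vD_mem
    simp only [inner3]
    simp [vA, vB, vD]
    linear_combination (u 0 - u 1 + u 2) ^ 2 * hs2 + 3 * hself
  have f3 : ∀ s : ℝ, s = 1 ∨ s = -1 → s * ((u 0 + u 1 + u 2) / 2) ≤
      (area u (shadow u regTet)).toReal := by
    intro s hs
    have hs2 := two s hs
    apply shadow_ge hK hc hu vA_mem vC_mem vA_mem vD_mem
    simp only [inner3]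
    simp [vA, vC, vD]
    linear_combination (u 0 + u 1 + u 2) ^ 2 * hs2 + 3 * hself
  have f4 : ∀ s : ℝ, s = 1 ∨ s = -1 → s * ((u 0 + u 1 - u 2) / 2) ≤
      (area u (shadow u regTet)).toReal := by
    intro s hs
    have hs2 := two s hs
    apply shadow_ge hK hc hu vB_mem vC_mem vB_mem vD_mem
    simp only [inner3]
    simp [vB, vC, vD]
    linear_combination (u 0 + u 1 - u 2) ^ 2 * hs2 + 3 * hself
  generalize (area u (shadow u regTet)).toReal = M at *
  generalize u 0 = a at *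
  generalize u 1 = b at *
  generalize u 2 = c at *
  have p : (1:ℝ) = 1 ∨ (1:ℝ) = -1 := Or.inl rfl
  have q : (-1:ℝ) = 1 ∨ (-1:ℝ) = -1 := Or.inr rfl
  have hA : |a| ≤ M := abs_le.2 ⟨by linarith [e0 _ q], by linarith [e0 _ p]⟩
  have hB : |b| ≤ M := abs_le.2 ⟨by linarith [e1 _ q], by linarith [e1 _ p]⟩
  have hC : |c| ≤ M := abs_le.2 ⟨by linarith [e2 _ q], by linarith [e2 _ p]⟩
  have hS : |a| + |b| + |c| ≤ 2 * M := by
    have g1p := f1 _ p
    have g1q := f1 _ q
    have g2p := f2 _ p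
    have g2q := f2 _ q
    have g3p := f3 _ p
    have g3q := f3 _ q
    have g4p := f4 _ p
    have g4q := f4 _ q
    rcases abs_cases a with ⟨h1, _⟩ | ⟨h1, _⟩ <;> rcases abs_cases b with ⟨h2, _⟩ | ⟨h2, _⟩ <;>
      rcases abs_cases c with ⟨h3, _⟩ | ⟨h3, _⟩ <;> rw [h1, h2, h3] <;> linarith
  have hM0 : 0 ≤ M := le_trans (abs_nonneg a) hA
  have hkey : 1 ≤ 2 * M ^ 2 := by
    have : a ^ 2 + b ^ 2 + c ^ 2 ≤ M * (|a| + |b| + |c|) := by
      rw [← sq_abs a, ← sq_abs b, ← sq_abs c]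
      nlinarith [abs_nonneg a, abs_nonneg b, abs_nonneg c]
    nlinarith
  have h2 : Real.sqrt 2 ^ 2 = 2 := Real.sq_sqrt (by norm_num)
  refine le_of_sq_le_sq ?_ hM0
  rw [div_pow, h2]
  linarith

end

end Vale.Agent.P243
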