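import Mathlib

namespace Vale.Agent.P243

/-- the (excess of the) height of the base of a cell -/
noncomputable def gg (δ z : ℝ) : ℝ := z ^ 2 / 16 + 51 / 50 * z ^ 4 + δ / 3

lemma gg_nonneg {δ z : ℝ} (hδ : 0 ≤ δ) : 0 ≤ gg δ z := by
  unfold gg; positivity

lemma wall_aux1 {c g Z d : ℝ} (hc0 : 0 ≤ c) (hc1 : c ≤ 1 / 8) (hg0 : 0 ≤ g) (hg1 : g ≤ 1 / 50)
    (hZ : Z ≤ 1 / 16) (hd : 0 ≤ d) : -(d / 400) ≤ c * (1 / 16 - d - Z) * g := by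
  have p1 : 0 ≤ c * g := mul_nonneg hc0 hg0
  have p2 : c * g ≤ 1 / 8 * (1 / 50) := mul_le_mul hc1 hg1 hg0 (by norm_num)
  have p3 : 0 ≤ c * g * (1 / 16 - Z) := mul_nonneg p1 (by linarith)
  have p4 : c * g * d ≤ 1 / 8 * (1 / 50) * d := mul_le_mul_of_nonneg_right p2 hd
  have e : c * (1 / 16 - d - Z) * g = c * g * (1 / 16 - Z) - c * g * d := by ring
  rw [e]; linarith

lemma wall_aux2 {Z W m K : ℝ} (hm2 : m ^ 2 = Z * W) (hZ0 : 0 ≤ Z) (hW0 : 0 ≤ W)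
    (hK0 : 0 ≤ K) (hK1 : K ≤ 1 / 5) : m ^ 2 * K ^ 2 ≤ 1 / 50 * (Z ^ 2 + W ^ 2) := by
  have hK2 : K ^ 2 ≤ 1 / 25 := by
    have : K ^ 2 ≤ (1 / 5) ^ 2 := pow_le_pow_left₀ hK0 hK1 2
    linarith
  rw [hm2]
  have h1 : Z * W * K ^ 2 ≤ Z * W * (1 / 25) :=
    mul_le_mul_of_nonneg_left hK2 (mul_nonneg hZ0 hW0)
  have h2 : 2 * (Z * W) ≤ Z ^ 2 + W ^ 2 := by linarith [sq_nonneg (Z - W), sub_sq Z W]
  linarith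

lemma wall_aux3 {g Z δ : ℝ} (hZ0 : 0 ≤ Z) (hZ1 : Z ≤ 1 / 16) (hδ1 : δ ≤ 1 / 100)
    (hg : g = Z / 16 + 51 / 50 * Z ^ 2 + δ / 3) : g ≤ 1 / 50 := by
  have : Z ^ 2 ≤ (1 / 16) ^ 2 := pow_le_pow_left₀ hZ0 hZ1 2
  rw [hg]; linarith

lemma wall_diff (Z W m K δ gz gw : ℝ) (hgz : gz = Z / 16 + 51 / 50 * Z ^ 2 + δ / 3)
    (hgw : gw = W / 16 + 51 / 50 * W ^ 2 + δ / 3) (hK : K = 1 / 16 + 51 / 50 * (Z + W)) :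
    gz * (1 + (Z + 1 / 16 - δ ^ 2) * (W + 1 / 16 - δ ^ 2) + 2 * m
      - 2 * Z * (W + 1 / 16 - δ ^ 2)) +
      gw * (1 + (Z + 1 / 16 - δ ^ 2) * (W + 1 / 16 - δ ^ 2) - 2 * m
      - 2 * W * (Z + 1 / 16 - δ ^ 2)) -
      (Z * (W + 1 / 16 - δ ^ 2) + W * (Z + 1 / 16 - δ ^ 2) + 81 / 128 * δ) =
      (Z - W + m * K) ^ 2 + (1 / 50 * (Z ^ 2 + W ^ 2) - m ^ 2 * K ^ 2) + δ ^ 2 * (Z + W)
      + (2 / 3 - 81 / 128) * δ + (W + 1 / 16 - δ ^ 2) * (1 / 16 - δ ^ 2 - Z) * gz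
      + (Z + 1 / 16 - δ ^ 2) * (1 / 16 - δ ^ 2 - W) * gw := by
  subst hgz hgw hK
  ring

lemma wall_poly' {Z W m δ : ℝ} (hZ0 : 0 ≤ Z) (hW0 : 0 ≤ W) (hz : Z ≤ 1 / 16) (hw : W ≤ 1 / 16)
    (hm2 : m ^ 2 = Z * W) (hδ0 : 0 < δ) (hδ1 : δ ≤ 1 / 100) {gz gw : ℝ}
    (hgz : gz = Z / 16 + 51 / 50 * Z ^ 2 + δ / 3)
    (hgw : gw = W / 16 + 51 / 50 * W ^ 2 + δ / 3) :
    Z * (W + 1 / 16 - δ ^ 2) + W * (Z + 1 / 16 - δ ^ 2) + 81 / 128 * δ ≤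
    gz * (1 + (Z + 1 / 16 - δ ^ 2) * (W + 1 / 16 - δ ^ 2) + 2 * m
      - 2 * Z * (W + 1 / 16 - δ ^ 2)) +
    gw * (1 + (Z + 1 / 16 - δ ^ 2) * (W + 1 / 16 - δ ^ 2) - 2 * m
      - 2 * W * (Z + 1 / 16 - δ ^ 2)) := by
  have hδ2 : δ ^ 2 ≤ δ / 100 := by
    have : δ * δ ≤ δ * (1 / 100) := mul_le_mul_of_nonneg_left hδ1 hδ0.le
    rw [sq]; linarith
  have hδ20 : 0 ≤ δ ^ 2 := sq_nonneg δ
  have hgz0 : 0 ≤ gz := by rw [hgz]; positivity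
  have hgw0 : 0 ≤ gw := by rw [hgw]; positivity
  have hgz1 : gz ≤ 1 / 50 := wall_aux3 hZ0 hz hδ1 hgz
  have hgw1 : gw ≤ 1 / 50 := wall_aux3 hW0 hw hδ1 hgw
  have t3 := wall_aux1 (c := W + 1 / 16 - δ ^ 2) (g := gz) (Z := Z) (d := δ ^ 2)
    (by linarith) (by linarith) hgz0 hgz1 hz hδ20
  have t4 := wall_aux1 (c := Z + 1 / 16 - δ ^ 2) (g := gw) (Z := W) (d := δ ^ 2)
    (by linarith) (by linarith) hgw0 hgw1 hw hδ20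
  have hK0 : 0 ≤ 1 / 16 + 51 / 50 * (Z + W) := by positivity
  have hK1 : 1 / 16 + 51 / 50 * (Z + W) ≤ 1 / 5 := by linarith
  have t5 := wall_aux2 hm2 hZ0 hW0 hK0 hK1
  have t6 : 0 ≤ (Z - W + m * (1 / 16 + 51 / 50 * (Z + W))) ^ 2 := sq_nonneg _
  have hdiff := wall_diff Z W m _ δ gz gw hgz hgw rfl
  have t7 : 0 ≤ δ ^ 2 * (Z + W) := by positivity
  linarith

lemma wall_poly {z w δ : ℝ} (hz : z ^ 2 ≤ 1 / 16) (hw : w ^ 2 ≤ 1 / 16) (hδ0 : 0 < δ)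
    (hδ1 : δ ≤ 1 / 100) :
    z ^ 2 * (w ^ 2 + 1 / 16 - δ ^ 2) + w ^ 2 * (z ^ 2 + 1 / 16 - δ ^ 2) + 81 / 128 * δ ≤
    gg δ z * (1 + (z ^ 2 + 1 / 16 - δ ^ 2) * (w ^ 2 + 1 / 16 - δ ^ 2) + 2 * (z * w)
      - 2 * z ^ 2 * (w ^ 2 + 1 / 16 - δ ^ 2)) +
    gg δ w * (1 + (z ^ 2 + 1 / 16 - δ ^ 2) * (w ^ 2 + 1 / 16 - δ ^ 2) - 2 * (z * w)
      - 2 * w ^ 2 * (z ^ 2 + 1 / 16 - δ ^ 2)) :=
  wall_poly' (sq_nonneg z) (sq_nonneg w) hz hw (by ring) hδ0 hδ1 (by unfold gg; ring)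
    (by unfold gg; ring)

/-- The wall inequality: a point of the body is below the wall (in its upper cell) or above it
(in its lower cell). -/
lemma wall {z w δ t τ ρ ρ' : ℝ} (hz : |z| ≤ 1 / 4) (hw : |w| ≤ 1 / 4) (hδ0 : 0 < δ)
    (hδ1 : δ ≤ 1 / 100) (htτ : |t| + |τ| ≤ 1 / 2)
    (hsum : ρ + ρ' = 1 + z * t - w * τ)
    (h1 : |τ - 2 * z * ρ + (z ^ 2 + 1 / 16 - δ ^ 2) * t| ≤ 2 * δ * ρ)
    (h2 : |t - 2 * w * ρ' - (w ^ 2 + 1 / 16 - δ ^ 2) * τ| ≤ 2 * δ * ρ') :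
    ρ ≤ 1 / 2 + gg δ z ∨ ρ' ≤ 1 / 2 + gg δ w := by
  by_contra hcon
  push Not at hcon
  obtain ⟨hα, hβ⟩ := hcon
  have hz2 : z ^ 2 ≤ 1 / 16 := by
    have : |z| ^ 2 ≤ (1 / 4) ^ 2 := pow_le_pow_left₀ (abs_nonneg z) hz 2
    rw [sq_abs] at this; linarith
  have hw2 : w ^ 2 ≤ 1 / 16 := by
    have : |w| ^ 2 ≤ (1 / 4) ^ 2 := pow_le_pow_left₀ (abs_nonneg w) hw 2
    rw [sq_abs] at this; linarith
  have hδ2 : δ ^ 2 ≤ δ / 100 := by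
    have : δ * δ ≤ δ * (1 / 100) := mul_le_mul_of_nonneg_left hδ1 hδ0.le
    rw [sq]; linarith
  obtain ⟨c₁, hc₁⟩ : ∃ c, c = z ^ 2 + 1 / 16 - δ ^ 2 := ⟨_, rfl⟩
  obtain ⟨c₂, hc₂⟩ : ∃ c, c = w ^ 2 + 1 / 16 - δ ^ 2 := ⟨_, rfl⟩
  have hpoly := wall_poly hz2 hw2 hδ0 hδ1
  rw [← hc₁] at h1
  rw [← hc₂] at h2
  rw [← hc₁, ← hc₂] at hpoly
  have hc10 : 0 ≤ c₁ := by rw [hc₁]; nlinarith [sq_nonneg z]
  have hc11 : c₁ ≤ 1 / 8 := by rw [hc₁]; nlinarith [sq_nonneg δ]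
  have hc20 : 0 ≤ c₂ := by rw [hc₂]; nlinarith [sq_nonneg w]
  have hc21 : c₂ ≤ 1 / 8 := by rw [hc₂]; nlinarith [sq_nonneg δ]
  clear hc₁ hc₂
  obtain ⟨e₁, he₁⟩ : ∃ e, e = τ - 2 * z * ρ + c₁ * t := ⟨_, rfl⟩
  obtain ⟨e₂, he₂⟩ : ∃ e, e = t - 2 * w * ρ' - c₂ * τ := ⟨_, rfl⟩
  rw [← he₁] at h1
  rw [← he₂] at h2
  obtain ⟨α, hαd⟩ : ∃ a, a = ρ - 1 / 2 := ⟨_, rfl⟩
  obtain ⟨β, hβd⟩ : ∃ a, a = ρ' - 1 / 2 := ⟨_, rfl⟩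
  have hgz : 0 ≤ gg δ z := gg_nonneg hδ0.le
  have hgw : 0 ≤ gg δ w := gg_nonneg hδ0.le
  have hα' : gg δ z < α := by rw [hαd]; linarith
  have hβ' : gg δ w < β := by rw [hβd]; linarith
  -- bound for the total excess
  have hD : ρ + ρ' ≤ 9 / 8 := by
    have a1 : z * t ≤ 1 / 4 * |t| := by
      calc z * t ≤ |z * t| := le_abs_self _
        _ = |z| * |t| := abs_mul _ _
        _ ≤ 1 / 4 * |t| := mul_le_mul_of_nonneg_right hz (abs_nonneg t)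
    have a2 : -(w * τ) ≤ 1 / 4 * |τ| := by
      calc -(w * τ) ≤ |w * τ| := neg_le_abs _
        _ = |w| * |τ| := abs_mul _ _
        _ ≤ 1 / 4 * |τ| := mul_le_mul_of_nonneg_right hw (abs_nonneg τ)
    linarith
  -- the identity
  have hid : α * (1 + c₁ * c₂ + 2 * (z * w) - 2 * z ^ 2 * c₂) +
      β * (1 + c₁ * c₂ - 2 * (z * w) - 2 * w ^ 2 * c₁) =
      z ^ 2 * c₂ + w ^ 2 * c₁ + (e₂ * (z + w * c₁) + e₁ * (z * c₂ - w)) := by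
    subst hαd hβd he₁ he₂
    have hs : ρ' = 1 + z * t - w * τ - ρ := by linarith
    subst hs
    ring
  -- the error term
  have hE : e₂ * (z + w * c₁) + e₁ * (z * c₂ - w) ≤ 81 / 128 * δ := by
    have b1 : |z + w * c₁| ≤ 9 / 32 := by
      calc |z + w * c₁| ≤ |z| + |w * c₁| := abs_add_le _ _
        _ = |z| + |w| * c₁ := by rw [abs_mul, abs_of_nonneg hc10]
        _ ≤ 1 / 4 + 1 / 4 * (1 / 8) := by gcongr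
        _ = 9 / 32 := by norm_num
    have b2 : |z * c₂ - w| ≤ 9 / 32 := by
      calc |z * c₂ - w| ≤ |z * c₂| + |w| := abs_sub _ _
        _ = |z| * c₂ + |w| := by rw [abs_mul, abs_of_nonneg hc20]
        _ ≤ 1 / 4 * (1 / 8) + 1 / 4 := by gcongr
        _ = 9 / 32 := by norm_num
    have b3 : e₂ * (z + w * c₁) ≤ 2 * δ * ρ' * (9 / 32) := by
      calc e₂ * (z + w * c₁) ≤ |e₂ * (z + w * c₁)| := le_abs_self _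
        _ = |e₂| * |z + w * c₁| := abs_mul _ _
        _ ≤ 2 * δ * ρ' * (9 / 32) := mul_le_mul h2 b1 (abs_nonneg _) ((abs_nonneg _).trans h2)
    have b4 : e₁ * (z * c₂ - w) ≤ 2 * δ * ρ * (9 / 32) := by
      calc e₁ * (z * c₂ - w) ≤ |e₁ * (z * c₂ - w)| := le_abs_self _
        _ = |e₁| * |z * c₂ - w| := abs_mul _ _
        _ ≤ 2 * δ * ρ * (9 / 32) := mul_le_mul h1 b2 (abs_nonneg _) ((abs_nonneg _).trans h1)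
    have b5 : δ * (ρ + ρ') ≤ δ * (9 / 8) := mul_le_mul_of_nonneg_left hD hδ0.le
    nlinarith
  have hzw : |z * w| ≤ 1 / 16 := by
    rw [abs_mul]
    calc |z| * |w| ≤ 1 / 4 * (1 / 4) := mul_le_mul hz hw (abs_nonneg _) (by norm_num)
      _ = 1 / 16 := by norm_num
  have hzw1 := abs_le.1 hzw
  have hq1 : z ^ 2 * c₂ ≤ 1 / 16 * (1 / 8) := mul_le_mul hz2 hc21 hc20 (by norm_num)
  have hq2 : w ^ 2 * c₁ ≤ 1 / 16 * (1 / 8) := mul_le_mul hw2 hc11 hc10 (by norm_num)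
  have hcc : 0 ≤ c₁ * c₂ := mul_nonneg hc10 hc20
  have k1 : 0 < 1 + c₁ * c₂ + 2 * (z * w) - 2 * z ^ 2 * c₂ := by linarith [hzw1.1]
  have k2 : 0 < 1 + c₁ * c₂ - 2 * (z * w) - 2 * w ^ 2 * c₁ := by linarith [hzw1.2]
  have m1 := mul_lt_mul_of_pos_right hα' k1
  have m2 := mul_lt_mul_of_pos_right hβ' k2
  linarith

end Vale.Agent.P243
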